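import Vale.Agent.P091.T.H937.Lst

/-! # P091, row T8: literal statement of T8CORE -/

namespace Vale.Agent.P091.T.H937

open Vale.Agent.P091.H413 Finset

/-- y-side of one epoch on the list tree: leaves are the nodes of length `n`, `m v y` is the alive
weight of the leaf `y` at departure from the node `v` (only removals on the way down). -/
structure YSide (n : ℕ) (D : ℝ) where
  m : Node → Node → ℝ
  nonneg : ∀ v y, 0 ≤ m v y
  le : ∀ y, m [] y ≤ Real.exp D
  rem : ∀ v, v.length < n → ∀ b y, m (b :: v) y = m v y ∨ m (b :: v) y = 0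
  avg : A n (m []) [] ≤ 1

namespace YSide

variable {n : ℕ} {D : ℝ} (Y : YSide n D)

/-- alive mass density at departure -/
noncomputable def G (v : Node) : ℝ := A n (Y.m v) v

/-- alive mass density on arrival -/
noncomputable def G' : Node → ℝ
  | [] => A n (Y.m []) []
  | b :: v => A n (Y.m v) (b :: v)

/-- removed mass density -/
noncomputable def R (v : Node) : ℝ := Y.G' v - Y.G v

/-- cut entropy -/
noncomputable def loss (v : Node) : ℝ := Y.R v + Y.R v * Real.log (Y.G' v / Y.R v)

variable {M : ℕ} [NeZero M]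

/-- letter mean at departure -/
noncomputable def B (θ : ZMod M) (v : Node) : ℂ := AC n (fun y => (Y.m v y : ℂ) * ch θ y) v

/-- letter mean at the child `b :: v` on arrival -/
noncomputable def B' (θ : ZMod M) (b : Bool) (v : Node) : ℂ :=
  AC n (fun y => (Y.m v y : ℂ) * ch θ y) (b :: v)

/-- half difference of the letter means on arrival at the two children -/
noncomputable def dB (θ : ZMod M) (v : Node) : ℂ := (Y.B' θ true v - Y.B' θ false v) / 2

end YSide

open Classical in
/-- **T8CORE.**  `T`: prefix-closed set of nodes with alive density at most `2`;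
`δ`: bias level; `k`: maximal length of the lists; `E`: total cut entropy. -/
def T8Core : Prop := ∃ C : ℝ, 0 < C ∧ ∀ (n M : ℕ) [NeZero M] (D E δ : ℝ) (k : ℕ)
  (Y : YSide n D) (T : Node → Prop),
  1 ≤ D → 0 ≤ E → 0 < δ → δ ≤ 1 / 4 → 1 ≤ k →
  (∀ b v, T (b :: v) → T v) → (∀ v, T v → Y.G v ≤ 2) → S (n + 1) Y.loss [] ≤ E →
  ∃ (T' : Node → Prop) (ω : Node → ℝ),
    (∀ b v, T' (b :: v) → T' v) ∧ (∀ v, T' v → T v) ∧ (∀ v, 0 ≤ ω v) ∧
    -- the first nodes of `T` outside `T'` have small total mass
    S (n + 1) (fun v => if T v ∧ ¬ T' v ∧ (∀ b u, v = b :: u → T' u) then 1 else 0) []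
      ≤ C * (D + E) / (δ ^ 3 * k) ∧
    -- energy of the common bound
    S n (fun v => if T' v then ω v ^ 2 else 0) [] ≤
      C * ((k : ℝ) + Real.log (1 / δ)) ^ 3 * (D + E + k * Real.log (20 * (k + 1))) ∧
    -- a letter which is biased at `s` varies by at most `ω` plus a summable sequence below `s`
    ∀ (θ : ZMod M) (s : Node), s.length ≤ n → T' s → δ ≤ ‖Y.B θ s‖ →
      ∃ y : ℕ → ℝ, (∀ j, 0 ≤ y j) ∧ (∀ K, ∑ j ∈ range K, y j ≤ C) ∧
        ∀ v : Node, s <:+ v → v.length < n → T' v →
          ‖Y.dB θ v‖ ≤ y (v.length - s.length) + ω v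

end Vale.Agent.P091.T.H937
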