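import Vale.Agent.P091.H413.Tree

/-! # P091, row T8: first exit of a tree, counting -/

namespace Vale.Agent.P091.T.H937

open Vale.Agent.P091.H413 Finset

section
variable {k : ℕ} {len c st : Node → ℝ}
  (hc0 : ∀ v, 0 ≤ c v) (hroot : len [] = c []) (hlen : ∀ b v, len (b :: v) = c (b :: v) + len v)
  (hst : ∀ v, st v = 0 ∨ (st v = 1 ∧ (k : ℝ) < len v ∧ ∀ b u, v = b :: u → len u ≤ k))

include hc0 hroot hlen

theorem len_nonneg (v : Node) : 0 ≤ len v := by
  induction v with
  | nil => rw [hroot]; exact hc0 []
  | cons b v ih => rw [hlen]; linarith [hc0 (b :: v)]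

omit hroot in
theorem len_mono {v w : Node} (h : v <:+ w) : len v ≤ len w := by
  obtain ⟨t, rfl⟩ := h
  induction t with
  | nil => exact le_rfl
  | cons b t ih =>
    rw [List.cons_append, hlen]
    linarith [hc0 (b :: (t ++ v))]

include hst

omit hroot in
theorem S_st_zero (j : ℕ) (v : Node) (hv : (k : ℝ) < len v) (b : Bool) : S j st (b :: v) = 0 := by
  have hst0 : ∀ (v : Node), (k : ℝ) < len v → ∀ b, st (b :: v) = 0 := by
    intro v hv b
    rcases hst (b :: v) with h | ⟨_, _, h⟩
    · exact h
    · have := h b v rfl
      linarith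
  induction j generalizing v b with
  | zero => rfl
  | succ j ih =>
    simp only [S]
    have h1 : (k : ℝ) < len (b :: v) := lt_of_lt_of_le hv (len_mono hc0 hlen (List.suffix_cons _ _))
    rw [hst0 v hv b, ih (b :: v) h1 true, ih (b :: v) h1 false]
    simp

theorem exit_below (j : ℕ) (b : Bool) (v : Node) (hv : len v ≤ k) :
    k * S j st (b :: v) ≤ len v + S j c (b :: v) := by
  have hc : ∀ j v, 0 ≤ S j c v := fun j v => S_nonneg j v fun w _ => hc0 w
  induction j generalizing b v with
  | zero =>
    simp only [S, mul_zero, add_zero]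
    exact len_nonneg hc0 hroot hlen v
  | succ j ih =>
    simp only [S]
    by_cases hk : (k : ℝ) < len (b :: v)
    · rw [S_st_zero hc0 hlen hst j _ hk true, S_st_zero hc0 hlen hst j _ hk false]
      have h1 : st (b :: v) ≤ 1 := by
        rcases hst (b :: v) with h | ⟨h, _⟩
        · rw [h]; norm_num
        · rw [h]
      have h2 := hc j (true :: b :: v)
      have h3 := hc j (false :: b :: v)
      have h4 := hlen b v
      have hk0 : (0 : ℝ) ≤ k := Nat.cast_nonneg k
      nlinarith
    · push Not at hk
      have h0 : st (b :: v) = 0 := by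
        rcases hst (b :: v) with h | ⟨_, h, _⟩
        · exact h
        · linarith
      have h1 := ih true (b :: v) hk
      have h2 := ih false (b :: v) hk
      have h4 := hlen b v
      rw [h0]
      linarith

/-- the first nodes with a long list have small mass -/
theorem exit_le (j : ℕ) : k * S (j + 1) st [] ≤ S (j + 1) c [] := by
  have hc : ∀ j v, 0 ≤ S j c v := fun j v => S_nonneg j v fun w _ => hc0 w
  simp only [S]
  by_cases hk : (k : ℝ) < len []
  · rw [S_st_zero hc0 hlen hst j _ hk true, S_st_zero hc0 hlen hst j _ hk false]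
    have h1 : st [] ≤ 1 := by
      rcases hst [] with h | ⟨h, _⟩
      · rw [h]; norm_num
      · rw [h]
    have h2 := hc j [true]
    have h3 := hc j [false]
    have hk0 : (0 : ℝ) ≤ k := Nat.cast_nonneg k
    rw [hroot] at hk
    nlinarith
  · push Not at hk
    have h0 : st [] = 0 := by
      rcases hst [] with h | ⟨_, h, _⟩
      · exact h
      · linarith
    have h1 := exit_below hc0 hroot hlen hst j true [] hk
    have h2 := exit_below hc0 hroot hlen hst j false [] hk
    rw [h0]
    rw [hroot] at h1 h2
    linarith

end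

end Vale.Agent.P091.T.H937
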