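import Vale.Agent.P091.T.H937.Lst

/-! # P091, row T8: existence of the noise kernels -/

namespace Vale.Agent.P091.T.H937

open Finset

variable (M : ℕ) [NeZero M]

/-- half width of the noise -/
def hw (i : ℕ) : ℕ := M / (20 * (i + 1))

/-- the uniform kernel on `[-b, b]` -/
noncomputable def unif (i : ℕ) (c : ZMod M) : ℝ :=
  ∑ t ∈ Icc (-(hw M i : ℤ)) (hw M i : ℤ), (if (t : ZMod M) = c then 1 else 0) / (2 * (hw M i : ℝ) + 1)

theorem card_Icc (b : ℕ) : ((Icc (-(b : ℤ)) (b : ℤ)).card : ℝ) = 2 * (b : ℝ) + 1 := by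
  rw [Int.card_Icc]
  have : ((b : ℤ) + 1 - -(b : ℤ)).toNat = 2 * b + 1 := by omega
  rw [this]; push_cast; ring

theorem unif_sum_mul {R : Type*} [Field R] [Algebra ℝ R] (i : ℕ) (F : ZMod M → R) :
    ∑ c, algebraMap ℝ R (unif M i c) * F c =
      (∑ t ∈ Icc (-(hw M i : ℤ)) (hw M i : ℤ), F (t : ZMod M)) /
        algebraMap ℝ R (2 * (hw M i : ℝ) + 1) := by
  unfold unif
  simp only [map_sum, Finset.sum_mul]
  rw [Finset.sum_comm, Finset.sum_div]
  refine Finset.sum_congr rfl fun t _ => ?_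
  rw [Finset.sum_eq_single (t : ZMod M)]
  · simp only [if_true, map_div₀, map_one]; ring
  · intro c _ hc
    rw [if_neg (Ne.symm hc)]; simp
  · intro h; exact absurd (Finset.mem_univ _) h

theorem unif_sum (i : ℕ) : ∑ c, unif M i c = 1 := by
  have h := unif_sum_mul (R := ℝ) M i (fun _ => 1)
  simp only [Algebra.algebraMap_self, RingHom.id_apply, mul_one, Finset.sum_const,
    nsmul_eq_mul, card_Icc] at h
  rw [h]
  exact div_self (by positivity)

theorem unif_le (i : ℕ) (c : ZMod M) : unif M i c ≤ 20 * ((i : ℝ) + 1) / M := by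
  have hM : (0 : ℝ) < M := by exact_mod_cast Nat.pos_of_ne_zero (NeZero.ne M)
  have h1 : unif M i c ≤ 1 / (2 * (hw M i : ℝ) + 1) := by
    unfold unif
    rw [← Finset.sum_div]
    gcongr
    rw [Finset.sum_ite, Finset.sum_const_zero, add_zero, Finset.sum_const, nsmul_eq_mul, mul_one]
    have : (Finset.filter (fun t : ℤ => (t : ZMod M) = c)
        (Icc (-(hw M i : ℤ)) (hw M i : ℤ))).card ≤ 1 := by
      rw [Finset.card_le_one]
      intro a ha b hb
      simp only [Finset.mem_filter, Finset.mem_Icc] at ha hb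
      by_cases h0 : hw M i = 0
      · rw [h0] at ha hb; simp only [Nat.cast_zero, neg_zero] at ha hb; omega
      · have h20 : 20 * hw M i ≤ M := by
          unfold hw at h0 ⊢
          have h2 : M / (20 * (i + 1)) * (20 * (i + 1)) ≤ M := Nat.div_mul_le_self _ _
          nlinarith [Nat.zero_le i, Nat.zero_le (M / (20 * (i + 1)))]
        have he : (a : ZMod M) = (b : ZMod M) := ha.2.trans hb.2.symm
        rw [ZMod.intCast_eq_intCast_iff] at he
        have hd : (M : ℤ) ∣ b - a := he.dvd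
        have hlt : |b - a| < (M : ℤ) := by
          rw [abs_lt]; constructor <;> omega
        have := Int.eq_zero_of_abs_lt_dvd hd hlt
        omega
    exact_mod_cast this
  refine h1.trans ?_
  rw [div_le_div_iff₀ (by positivity) hM, one_mul]
  have h2 : M < (hw M i + 1) * (20 * (i + 1)) := by
    unfold hw
    have := Nat.lt_succ_mul_div_succ' M i
    exact this
  have h3 : (M : ℝ) < (hw M i + 1) * (20 * ((i : ℝ) + 1)) := by exact_mod_cast h2
  nlinarith [Nat.cast_nonneg (α := ℝ) (hw M i), Nat.cast_nonneg (α := ℝ) i,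
    mul_nonneg (Nat.cast_nonneg (α := ℝ) (hw M i)) (Nat.cast_nonneg (α := ℝ) i)]
  where
    Nat.lt_succ_mul_div_succ' (M i : ℕ) : M < (M / (20 * (i + 1)) + 1) * (20 * (i + 1)) := by
      have h := Nat.lt_mul_div_succ M (show 0 < 20 * (i + 1) by positivity)
      calc M < 20 * (i + 1) * (M / (20 * (i + 1)) + 1) := h
        _ = _ := by ring

/-- noise kernels exist -/
noncomputable def noise : Noise M where
  ker := unif M
  nonneg := fun i c => by
    unfold unif
    refine Finset.sum_nonneg fun t _ => ?_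
    split_ifs <;> positivity
  sum := unif_sum M
  le := unif_le M
  z := fun i => ∑ c, (unif M i c : ℂ) * ZMod.stdAddChar c
  z_eq := fun i => rfl
  z_ge := fun i => by
    have hM : (0 : ℝ) < M := by exact_mod_cast Nat.pos_of_ne_zero (NeZero.ne M)
    have h := unif_sum_mul (R := ℂ) M i (fun c => (ZMod.stdAddChar c : ℂ))
    simp only [Complex.coe_algebraMap] at h
    rw [h]
    refine le_trans ?_ (Complex.re_le_norm _)
    rw [Complex.div_ofReal_re, Complex.re_sum]
    rw [le_div_iff₀ (by positivity), ← card_Icc, mul_comm, ← nsmul_eq_mul, ← Finset.sum_const]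
    refine Finset.sum_le_sum fun t ht => ?_
    rw [ZMod.stdAddChar_coe]
    have e1 : Complex.exp (2 * Real.pi * Complex.I * (t : ℂ) / (M : ℂ)) =
        Complex.exp (((2 * Real.pi * t / M : ℝ) : ℂ) * Complex.I) := by
      congr 1; push_cast; ring
    rw [e1, Complex.exp_ofReal_mul_I_re]
    refine le_trans ?_ (Real.one_sub_sq_div_two_le_cos)
    rw [Finset.mem_Icc] at ht
    have hb : (hw M i : ℝ) * (20 * ((i : ℝ) + 1)) ≤ M := by
      unfold hw
      exact_mod_cast Nat.div_mul_le_self _ _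
    have ht' : |(t : ℝ)| ≤ hw M i := by
      rw [abs_le]; constructor
      · exact_mod_cast ht.1
      · exact_mod_cast ht.2
    have h1 : |(t : ℝ)| / M ≤ 1 / (20 * ((i : ℝ) + 1)) := by
      rw [div_le_div_iff₀ hM (by positivity), one_mul]
      refine le_trans ?_ hb
      gcongr
    have h2 : (t : ℝ) ^ 2 / (M : ℝ) ^ 2 ≤ 1 / (400 * ((i : ℝ) + 1) ^ 2) := by
      have h3 : (|(t : ℝ)| / M) ^ 2 ≤ (1 / (20 * ((i : ℝ) + 1))) ^ 2 :=
        pow_le_pow_left₀ (by positivity) h1 2
      rw [div_pow, sq_abs, div_pow, one_pow] at h3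
      calc (t : ℝ) ^ 2 / (M : ℝ) ^ 2 ≤ 1 / (20 * ((i : ℝ) + 1)) ^ 2 := h3
        _ = 1 / (400 * ((i : ℝ) + 1) ^ 2) := by rw [mul_pow]; norm_num
    have hpi : Real.pi ^ 2 ≤ 10 := by nlinarith [Real.pi_lt_d2, Real.pi_pos]
    have e2 : (2 * Real.pi * t / M) ^ 2 / 2 = 2 * Real.pi ^ 2 * ((t : ℝ) ^ 2 / (M : ℝ) ^ 2) := by
      ring
    rw [e2]
    have h4 : 2 * Real.pi ^ 2 * ((t : ℝ) ^ 2 / (M : ℝ) ^ 2) ≤
        20 * (1 / (400 * ((i : ℝ) + 1) ^ 2)) :=
      mul_le_mul (by linarith) h2 (by positivity) (by norm_num)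
    have h5 : 20 * (1 / (400 * ((i : ℝ) + 1) ^ 2)) = (1 / 5) * (1 / (4 * ((i : ℝ) + 1) ^ 2)) := by
      field_simp; norm_num
    have h6 : 0 ≤ 1 / (4 * ((i : ℝ) + 1) ^ 2) := by positivity
    linarith
  z_le := fun i => by
    refine (norm_sum_le _ _).trans ?_
    rw [← unif_sum M i]
    refine Finset.sum_le_sum fun c _ => ?_
    rw [norm_mul, AddChar.norm_apply, mul_one, Complex.norm_real, Real.norm_eq_abs]
    apply le_of_eq
    apply abs_of_nonneg
    unfold unif
    refine Finset.sum_nonneg fun t _ => ?_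
    split_ifs <;> positivity

end Vale.Agent.P091.T.H937
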