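import Vale.Agent.P091.T.H937.Bridge
import Vale.Agent.P091.T.H937.NoiseEx
import Vale.Agent.P091.T.H937.Exit

/-! # P091, row T8: proof of T8CORE -/

namespace Vale.Agent.P091.T.H937

open Vale.Agent.P091.H413 Finset
open Vale.Agent.P091.T8.H655 (ms KLm YT Chr)

/-- the window length -/
theorem exists_window {δ : ℝ} (hδ : 0 < δ) (hδ4 : δ ≤ 1 / 4) :
    ∃ m0 : ℕ, 16 / δ ≤ 2 ^ m0 ∧ (m0 : ℝ) ≤ 6 * Real.log (1 / δ) := by
  have h16 : (1 : ℝ) ≤ 16 / δ := by
    rw [le_div_iff₀ hδ]; linarith
  have hl2 : 0 < Real.log 2 := Real.log_pos (by norm_num)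
  have hl2' : 0.6931471803 < Real.log 2 := Real.log_two_gt_d9
  refine ⟨⌈Real.log (16 / δ) / Real.log 2⌉₊, ?_, ?_⟩
  · have h1 : Real.log (16 / δ) / Real.log 2 ≤ ⌈Real.log (16 / δ) / Real.log 2⌉₊ := Nat.le_ceil _
    rw [div_le_iff₀ hl2] at h1
    have h2 : Real.log (16 / δ) ≤ Real.log ((2 : ℝ) ^ ⌈Real.log (16 / δ) / Real.log 2⌉₊) := by
      rw [Real.log_pow]; exact h1
    exact (Real.log_le_log_iff (by positivity) (by positivity)).1 h2
  · have h0 : 0 ≤ Real.log (16 / δ) / Real.log 2 := div_nonneg (Real.log_nonneg h16) hl2.le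
    have h1 : (⌈Real.log (16 / δ) / Real.log 2⌉₊ : ℝ) < Real.log (16 / δ) / Real.log 2 + 1 :=
      Nat.ceil_lt_add_one h0
    refine h1.le.trans ?_
    -- in units of `log 2`
    have e1 : Real.log (16 / δ) = 4 * Real.log 2 + Real.log (1 / δ) := by
      have : (16 : ℝ) / δ = 2 ^ 4 * (1 / δ) := by ring
      rw [this, Real.log_mul (by norm_num) (by positivity), Real.log_pow]
      norm_num
    have h4 : (4 : ℝ) ≤ 1 / δ := by
      rw [le_div_iff₀ hδ]; linarith
    have h5 : 2 * Real.log 2 ≤ Real.log (1 / δ) := by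
      have : Real.log ((2 : ℝ) ^ 2) ≤ Real.log (1 / δ) :=
        Real.log_le_log (by norm_num) (by linarith)
      rw [Real.log_pow] at this
      push_cast at this
      exact this
    rw [e1]
    have h6 : (4 * Real.log 2 + Real.log (1 / δ)) / Real.log 2 ≤ 3 * Real.log (1 / δ) / Real.log 2 := by
      apply div_le_div_of_nonneg_right _ hl2.le
      linarith
    have h7 : 3 * Real.log (1 / δ) / Real.log 2 ≤ 5 * Real.log (1 / δ) := by
      rw [div_le_iff₀ hl2]
      nlinarith
    linarith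

/-- the value of the summable sequence -/
theorem seq_sum {t W : ℝ} (ht : 0 ≤ t) (htW : t ≤ W) (hW : 0 < W) (K : ℕ) :
    ∑ j ∈ range K, (48 * (1 / (1 + t / 2 ^ j / 2) - 1 / (1 + t / 2 ^ j)) + 4 * (t / 2 ^ j / W)) ≤
      56 := by
  have key : ∀ K : ℕ, ∑ j ∈ range K,
      (48 * (1 / (1 + t / 2 ^ j / 2) - 1 / (1 + t / 2 ^ j)) + 4 * (t / 2 ^ j / W)) ≤
      48 * (1 / (1 + t / 2 ^ K) - 1 / (1 + t)) + 8 * (t / W) * (1 - 1 / 2 ^ K) := by
    intro K
    induction K with
    | zero => simp
    | succ K ih =>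
      rw [Finset.sum_range_succ]
      have e1 : t / 2 ^ K / 2 = t / 2 ^ (K + 1) := by rw [pow_succ]; field_simp
      rw [e1]
      have e2 : 8 * (t / W) * (1 - 1 / 2 ^ (K + 1)) =
          8 * (t / W) * (1 - 1 / 2 ^ K) + 4 * (t / 2 ^ K / W) := by
        rw [pow_succ]; field_simp; ring
      rw [e2]
      linarith
  refine (key K).trans ?_
  have h1 : 1 / (1 + t / 2 ^ K) ≤ 1 := by
    rw [div_le_one (by positivity)]
    have : 0 ≤ t / 2 ^ K := by positivity
    linarith
  have h2 : 0 ≤ 1 / (1 + t) := by positivity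
  have h3 : t / W ≤ 1 := by rw [div_le_one hW]; exact htW
  have h4 : 0 ≤ t / W := by positivity
  have h5 : 0 ≤ 1 - 1 / (2 : ℝ) ^ K := by
    rw [sub_nonneg, div_le_one (by positivity)]
    exact one_le_pow₀ (by norm_num)
  have h6 : 1 - 1 / (2 : ℝ) ^ K ≤ 1 := by
    have : 0 ≤ 1 / (2 : ℝ) ^ K := by positivity
    linarith
  have h7 : 8 * (t / W) * (1 - 1 / 2 ^ K) ≤ 8 := by nlinarith
  linarith

open Classical in
/-- **T8CORE holds.** -/
theorem t8core : T8Core := by
  refine ⟨86400, by norm_num, ?_⟩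
  intro n M _ D E δ k Y T hD hE0 hδ hδ4 hk hTp hTG hE
  -- parameters
  set δ' : ℝ := δ / 2 with hδ'
  set d : ℝ := δ / 16 with hd
  set η : ℝ := δ / 8 with hη
  set γ : ℝ := δ ^ 2 / 64 with hγ
  have hγ0 : 0 < γ := by rw [hγ]; positivity
  have hd0 : 0 ≤ d := by rw [hd]; positivity
  have hd2 : d ≤ 1 / 2 := by rw [hd]; linarith
  have hγ' : γ ≤ d * δ' - 2 * d ^ 2 - d * η := by
    rw [hγ, hd, hδ', hη]; nlinarith [sq_nonneg δ]
  obtain ⟨ℒ⟩ := (chr M).exists_lists (toYT Y) (δ := δ') (η := η) (γ := γ)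
    (fun v => if T v ∧ δ ≤ Y.G v then Set.univ else ∅) hd0 hd2 hγ0 hγ'
  -- the good set
  set T' : Node → Prop := fun v => T v ∧ (ℒ.L v).length ≤ k with hT'
  have hLlen : ∀ b v, (ℒ.L (b :: v)).length = (ℒ.N (b :: v)).length + (ℒ.L v).length := by
    intro b v
    rw [ℒ.child, List.length_append]
  have hT'p : ∀ b v, T' (b :: v) → T' v := by
    intro b v h
    refine ⟨hTp b v h.1, ?_⟩
    have := h.2
    rw [hLlen] at this
    omega
  -- the frozen lists
  let QL : Node → List (ZMod M) := fun v => List.rec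
    (if T' [] then (ℒ.L []).map Prod.fst else [])
    (fun b v L => if T' (b :: v) then (ℒ.L (b :: v)).map Prod.fst else L) v
  have hQ1 : ∀ v, T' v → QL v = (ℒ.L v).map Prod.fst := by
    intro v h
    cases v with
    | nil => exact if_pos h
    | cons b v => exact if_pos h
  have hQ2 : ∀ b v, ¬ T' (b :: v) → QL (b :: v) = QL v := fun b v h => if_neg h
  let Q : Grow M k :=
    { L := QL
      N := fun v => if T' v then (ℒ.N v).map Prod.fst else []
      child := by
        intro b v
        by_cases h : T' (b :: v)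
        · have h' := hT'p b v h
          rw [if_pos h, hQ1 _ h, hQ1 _ h', ℒ.child, List.map_append]
        · rw [if_neg h, hQ2 _ _ h, List.nil_append]
      len := by
        intro v
        induction v with
        | nil =>
          by_cases h : T' []
          · rw [hQ1 _ h, List.length_map]; exact h.2
          · have : QL [] = [] := if_neg h
            rw [this]; simp
        | cons b v ih =>
          by_cases h : T' (b :: v)
          · rw [hQ1 _ h, List.length_map]; exact h.2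
          · rw [hQ2 _ _ h]; exact ih }
  obtain ⟨m0, hm0, hm0'⟩ := exists_window hδ hδ4
  set W : ℕ := k + m0 with hW
  have hW1 : 1 ≤ W := by omega
  refine ⟨T', om Y (noise M) Q W, hT'p, fun v h => h.1, om_nonneg Y (noise M) Q W, ?_, ?_, ?_⟩
  · -- the exit mass
    have hN0 : ∀ v, ¬ (T v ∧ δ ≤ Y.G v) → ℒ.N v = [] := by
      intro v hv
      by_contra hne
      obtain ⟨a, ha⟩ := List.exists_mem_of_ne_nil _ hne
      have := ℒ.memS v a ha
      rw [if_neg hv] at this
      exact this
    suffices main : ∀ st : Node → ℝ, (∀ v, st v = 0 ∨ (st v = 1 ∧ (k : ℝ) < (ℒ.L v).length ∧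
        ∀ b u, v = b :: u → ((ℒ.L u).length : ℝ) ≤ k)) →
        S (n + 1) st [] ≤ 86400 * (D + E) / (δ ^ 3 * k) by
      apply main
      intro v
      by_cases h : T v ∧ ¬ T' v ∧ (∀ b u, v = b :: u → T' u)
      · right
        refine ⟨if_pos h, ?_, fun b u hu => by exact_mod_cast (h.2.2 b u hu).2⟩
        have h1 : ¬ ((ℒ.L v).length ≤ k) := fun h2 => h.2.1 ⟨h.1, h2⟩
        push Not at h1
        exact_mod_cast h1
      · left
        exact if_neg h
    intro st hst
    have hex := exit_le (k := k) (len := fun v => ((ℒ.L v).length : ℝ))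
      (c := fun v => ((ℒ.N v).length : ℝ)) (st := st)
      (fun v => Nat.cast_nonneg _) (by rw [ℒ.root])
      (fun b v => by rw [hLlen]; push_cast; ring) hst n
    have hcount := ℒ.S_add_le hd0 hd2 n [] (by simp)
    have hl0 : (toYT Y).loss [] = 0 := by rw [toYT_loss, Y.loss_nil]
    have hΨ : ℒ.Ψ [] ≤ D + 1 := by
      have e1 : ℒ.Ψ [] = KLm (Y.m []) (fun y => (toYT Y).ν y * (chr M).riesz d [] y)
          ((toYT Y).V []) / ms (toYT Y).ν ((toYT Y).V []) := rfl
      have e2 : (fun y => (toYT Y).ν y * (chr M).riesz d [] y) = (toYT Y).ν := by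
        funext y; rw [Chr.riesz_nil, mul_one]
      rw [e1, e2, msν_V]
      simpa using KL_root Y (by linarith)
    have hloss : S (n + 1) (toYT Y).loss [] ≤ E := by
      refine le_trans (S_mono (n + 1) [] fun w _ => ?_) hE
      rw [toYT_loss]
    rw [hl0, sub_zero] at hcount
    -- compare the counts
    have hcmp : δ * S (n + 1) (fun v => ((ℒ.N v).length : ℝ)) [] ≤
        S (n + 1) (fun v => (toYT Y).g v * (ℒ.N v).length) [] := by
      rw [← S_smul]
      refine S_mono (n + 1) [] fun w _ => ?_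
      rw [toYT_g]
      by_cases h : T w ∧ δ ≤ Y.G w
      · exact mul_le_mul_of_nonneg_right h.2 (Nat.cast_nonneg _)
      · rw [hN0 w h]; simp
    have hk0 : (0 : ℝ) < k := by exact_mod_cast hk
    have h1 : γ * (δ * (k * S (n + 1) st [])) ≤ D + 1 + E := by
      have h2 := mul_le_mul_of_nonneg_left (mul_le_mul_of_nonneg_left hex hδ.le) hγ0.le
      have h3 := mul_le_mul_of_nonneg_left hcmp hγ0.le
      linarith
    rw [le_div_iff₀ (by positivity)]
    have e3 : γ * (δ * (k * S (n + 1) st [])) = (S (n + 1) st [] * (δ ^ 3 * k)) / 64 := by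
      rw [hγ]; ring
    rw [e3, div_le_iff₀ (by norm_num)] at h1
    nlinarith
  · -- the energy
    have h1 := @energy M _ n D Y (noise M) k Q W hW1 hD E hE0 hE T'
      (fun v => Classical.propDecidable (T' v)) (fun v h => hTG v h.1)
    refine h1.trans ?_
    have hlog : 0 ≤ Real.log (1 / δ) := Real.log_nonneg (by
      rw [le_div_iff₀ hδ]; linarith)
    have hΛ : 0 ≤ k * Real.log (20 * ((k : ℝ) + 1)) :=
      mul_nonneg (Nat.cast_nonneg k)
        (Real.log_nonneg (by nlinarith [Nat.cast_nonneg (α := ℝ) k]))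
    have hX : 0 ≤ D + E + k * Real.log (20 * ((k : ℝ) + 1)) := by linarith
    have hWle : (W : ℝ) ≤ 6 * (k + Real.log (1 / δ)) := by
      rw [hW]; push_cast
      have : (0 : ℝ) ≤ k := Nat.cast_nonneg k
      linarith
    have h2 : (W : ℝ) ^ 3 ≤ (6 * (k + Real.log (1 / δ))) ^ 3 :=
      pow_le_pow_left₀ (Nat.cast_nonneg W) hWle 3
    calc 400 * (W : ℝ) ^ 3 * (D + E + k * Real.log (20 * ((k : ℝ) + 1)))
        ≤ 400 * (6 * (k + Real.log (1 / δ))) ^ 3 *
          (D + E + k * Real.log (20 * ((k : ℝ) + 1))) := by gcongr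
      _ = 86400 * ((k : ℝ) + Real.log (1 / δ)) ^ 3 *
          (D + E + k * Real.log (20 * (k + 1))) := by ring
  · -- the pointwise bound
    intro θ s hsn hs hB
    have hG2 := hTG s hs.1
    have h2p : (0 : ℝ) < 2 ^ (n - s.length) := by positivity
    -- visibility
    have hB' : ‖Y.B θ s‖ ≤ Y.G s := by
      unfold YSide.B YSide.G
      refine (norm_AC_le _ _ _).trans (le_of_eq ?_)
      congr 1
      funext y
      rw [norm_mul, norm_ch, mul_one, Complex.norm_real, Real.norm_of_nonneg (Y.nonneg s y)]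
    have hGδ : δ ≤ Y.G s := hB.trans hB'
    have hms : ms (Y.m s) ((toYT Y).V s) = 2 ^ (n - s.length) * Y.G s := ms_V Y _ _
    have hpos : 0 < ms ((toYT Y).m s) ((toYT Y).V s) := by
      change 0 < ms (Y.m s) ((toYT Y).V s)
      rw [hms]; exact mul_pos h2p (lt_of_lt_of_le hδ hGδ)
    have hcomp := ℒ.complete s hsn hpos
    rw [if_pos (show T s ∧ δ ≤ Y.G s from ⟨hs.1, hGδ⟩)] at hcomp
    have hvis := hcomp θ (Set.mem_univ _) (by
      change δ' * ms (Y.m s) ((toYT Y).V s) ≤ ‖(chr M).ft (Y.m s) ((toYT Y).V s) θ‖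
      rw [hms, ft_V, norm_mul, norm_pow]
      have e2 : ‖(2 : ℂ)‖ = 2 := by simp
      rw [e2]
      have e3 : AC n (fun y => (Y.m s y : ℂ) * ch θ y) s = Y.B θ s := rfl
      rw [e3]
      have h3 : δ' * Y.G s ≤ ‖Y.B θ s‖ := by
        refine le_trans ?_ hB
        rw [hδ']; nlinarith
      calc δ' * (2 ^ (n - s.length) * Y.G s) = 2 ^ (n - s.length) * (δ' * Y.G s) := by ring
        _ ≤ _ := mul_le_mul_of_nonneg_left h3 h2p.le)
    obtain ⟨r', hr', hlt⟩ := (chr M).exists_sp hd0 hd2 (w := (toYT Y).ν) (V := (toYT Y).V s)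
      (fun y _ => zero_le_one) (ℒ.L s) (ℒ.ph s) θ η (by rw [hη]; positivity) hvis
    -- the remainder is a low frequency
    have hnsp := span_neg hr'
    set r : ZMod M := θ + r' with hr
    set s0 : ZMod M := -r' with hs0
    have hθ : s0 + r = θ := by rw [hr, hs0]; ring
    rw [msν_V, ft_V, norm_mul, norm_pow] at hlt
    have e2 : ‖(2 : ℂ)‖ = 2 := by simp
    rw [e2] at hlt
    have e4 : AC n (fun y => ((toYT Y).ν y : ℂ) * ch r y) s = AC n (fun y => ch r y) s := by
      congr 1
      funext y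
      have : (toYT Y).ν y = 1 := rfl
      rw [this]; simp
    rw [e4] at hlt
    have hch : ‖AC n (fun y => ch r y) s‖ = ‖DD (ze r) (n - s.length)‖ := by
      unfold AC
      rw [LC_ch, norm_mul, norm_pow, norm_ze, one_pow, one_mul]
    rw [hch] at hlt
    have hDD := norm_DD_le (norm_ze r) (n - s.length)
    set κ : ℝ := ((1 - d) / (1 + d)) ^ (ℒ.L s).length with hκ
    have hκ2 : (1 / 2 : ℝ) ^ k ≤ κ := by
      have h5 : (1 / 2 : ℝ) ≤ (1 - d) / (1 + d) := by
        rw [le_div_iff₀ (by linarith)]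
        have : d ≤ 1 / 64 := by rw [hd]; linarith
        linarith
      calc (1 / 2 : ℝ) ^ k ≤ (1 / 2 : ℝ) ^ (ℒ.L s).length :=
            pow_le_pow_of_le_one (by norm_num) (by norm_num) hs.2
        _ ≤ κ := pow_le_pow_left₀ (by norm_num) h5 _
    have hDlow : η * κ < ‖DD (ze r) (n - s.length)‖ := by
      have : η * κ * 2 ^ (n - s.length) < 2 ^ (n - s.length) * ‖DD (ze r) (n - s.length)‖ := hlt
      have h6 : 2 ^ (n - s.length) * (η * κ) < 2 ^ (n - s.length) * ‖DD (ze r) (n - s.length)‖ := by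
        linarith
      exact lt_of_mul_lt_mul_left h6 h2p.le
    set t : ℝ := 2 ^ (n - s.length) * aa r with ht
    have ht0 : 0 ≤ t := mul_nonneg h2p.le (aa_nonneg r)
    have htW : t ≤ 2 ^ W := by
      have h7 : t * (η * κ) ≤ 2 := by
        refine le_trans (mul_le_mul_of_nonneg_left hDlow.le ht0) ?_
        exact hDD
      have h8 : η * (1 / 2 : ℝ) ^ k ≤ η * κ :=
        mul_le_mul_of_nonneg_left hκ2 (by rw [hη]; positivity)
      have h9 : t * (η * (1 / 2 : ℝ) ^ k) ≤ 2 := (mul_le_mul_of_nonneg_left h8 ht0).trans h7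
      have h10 : t ≤ 2 ^ k * (16 / δ) := by
        have e5 : t * (η * (1 / 2 : ℝ) ^ k) = t * δ / (8 * 2 ^ k) := by
          rw [hη, one_div, inv_pow]; field_simp
        rw [e5, div_le_iff₀ (by positivity)] at h9
        have e6 : (2 : ℝ) ^ k * (16 / δ) = (2 * (8 * 2 ^ k)) / δ := by ring
        rw [e6, le_div_iff₀ hδ]
        exact h9
      refine h10.trans ?_
      rw [hW, pow_add]
      exact mul_le_mul_of_nonneg_left hm0 (by positivity)
    refine ⟨fun j => 48 * (1 / (1 + t / 2 ^ j / 2) - 1 / (1 + t / 2 ^ j)) +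
      4 * (t / 2 ^ j / 2 ^ W), ?_, ?_, ?_⟩
    · intro j
      have h11 : 1 / (1 + t / 2 ^ j) ≤ 1 / (1 + t / 2 ^ j / 2) := by
        apply one_div_le_one_div_of_le (by positivity)
        have : 0 ≤ t / 2 ^ j := by positivity
        linarith
      have h12 : 0 ≤ t / 2 ^ j / 2 ^ W := by positivity
      simp only []
      linarith
    · intro K
      exact (seq_sum ht0 htW (by positivity) K).trans (by norm_num)
    · intro v hsv hvn hv
      have hvlen : s.length ≤ v.length := hsv.length_le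
      have hspan : InSpan (Q.L v) s0 := by
        have h13 : InSpan (Q.L s) s0 := by
          have : Q.L s = (ℒ.L s).map Prod.fst := hQ1 s hs
          rw [this]; exact hnsp
        exact InSpan_sublist (Q.suffix hsv).sublist h13
      have h14 := point_est Y (noise M) Q hW1 hvn (hTG v hv.1) hspan r
      rw [hθ] at h14
      have e7 : (2 : ℝ) ^ (n - v.length) * aa r = t / 2 ^ (v.length - s.length) := by
        rw [ht]
        have : n - s.length = (n - v.length) + (v.length - s.length) := by omega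
        rw [this, pow_add]
        field_simp
      rw [e7] at h14
      exact h14

end Vale.Agent.P091.T.H937
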