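import Vale.Agent.P091.H413.Tree

/-! # P091, row T8: averages over the leaves of the binary tree -/

namespace Vale.Agent.P091.T.H937

open Vale.Agent.P091.H413 Finset

/-! ## real averages -/

theorem Lf_add (k : ℕ) (f g : Node → ℝ) (v : Node) :
    Lf k (fun w => f w + g w) v = Lf k f v + Lf k g v := by
  induction k generalizing v with
  | zero => simp [Lf]
  | succ k ih => simp only [Lf, ih]; ring

theorem Lf_smul (k : ℕ) (c : ℝ) (f : Node → ℝ) (v : Node) :
    Lf k (fun w => c * f w) v = c * Lf k f v := by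
  induction k generalizing v with
  | zero => simp [Lf]
  | succ k ih => simp only [Lf, ih]; ring

theorem Lf_const (k : ℕ) (c : ℝ) (v : Node) : Lf k (fun _ => c) v = c := by
  induction k generalizing v with
  | zero => simp [Lf]
  | succ k ih => simp only [Lf, ih]; ring

theorem Lf_sum {ι : Type*} (s : Finset ι) (k : ℕ) (f : ι → Node → ℝ) (v : Node) :
    Lf k (fun w => ∑ i ∈ s, f i w) v = ∑ i ∈ s, Lf k (f i) v := by
  induction k generalizing v with
  | zero => simp [Lf]
  | succ k ih => simp only [Lf, ih]; rw [← Finset.sum_add_distrib, Finset.sum_div]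

theorem Lf_mono (k : ℕ) {f g : Node → ℝ} (v : Node) (h : ∀ w, f w ≤ g w) :
    Lf k f v ≤ Lf k g v := by
  induction k generalizing v with
  | zero => exact h v
  | succ k ih => simp only [Lf]; linarith [ih (true :: v), ih (false :: v)]

/-- monotonicity, with the length of the nodes which occur -/
theorem Lf_mono' (k : ℕ) {f g : Node → ℝ} (v : Node)
    (h : ∀ w : Node, w.length = k + v.length → f w ≤ g w) : Lf k f v ≤ Lf k g v := by
  induction k generalizing v with
  | zero => exact h v (by omega)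
  | succ k ih =>
    simp only [Lf]
    have h1 := ih (true :: v) (fun w hw => h w (by simp only [List.length_cons] at hw; omega))
    have h2 := ih (false :: v) (fun w hw => h w (by simp only [List.length_cons] at hw; omega))
    linarith

theorem Lf_nonneg (k : ℕ) {f : Node → ℝ} (v : Node) (h : ∀ w, 0 ≤ f w) : 0 ≤ Lf k f v := by
  have := Lf_mono k (f := fun _ => 0) v h
  rwa [Lf_const] at this

theorem Lf_congr' (k : ℕ) {f g : Node → ℝ} (v : Node)
    (h : ∀ w : Node, w.length = k + v.length → f w = g w) : Lf k f v = Lf k g v :=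
  le_antisymm (Lf_mono' k v fun w hw => (h w hw).le) (Lf_mono' k v fun w hw => (h w hw).ge)

/-- the children average commutes with `Lf` -/
theorem Lf_succ' (k : ℕ) (f : Node → ℝ) (v : Node) :
    Lf (k + 1) f v = Lf k (fun w => (f (true :: w) + f (false :: w)) / 2) v := by
  induction k generalizing v with
  | zero => simp [Lf]
  | succ k ih =>
    have e1 : Lf (k + 1 + 1) f v = (Lf (k + 1) f (true :: v) + Lf (k + 1) f (false :: v)) / 2 := rfl
    rw [e1, ih, ih]; rfl

/-- Cauchy-Schwarz for averages -/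
theorem Lf_sq_le (k : ℕ) {f a b : Node → ℝ} (v : Node) (ha : ∀ w, 0 ≤ a w) (hb : ∀ w, 0 ≤ b w)
    (h : ∀ w, f w ^ 2 ≤ a w * b w) : Lf k f v ^ 2 ≤ Lf k a v * Lf k b v := by
  induction k generalizing v with
  | zero => exact h v
  | succ k ih =>
    simp only [Lf]
    have h1 := ih (true :: v)
    have h2 := ih (false :: v)
    have a1 := Lf_nonneg k (true :: v) ha
    have a2 := Lf_nonneg k (false :: v) ha
    have b1 := Lf_nonneg k (true :: v) hb
    have b2 := Lf_nonneg k (false :: v) hb
    have key : ∀ (x y a1 a2 b1 b2 : ℝ), 0 ≤ a1 → 0 ≤ a2 → 0 ≤ b1 → 0 ≤ b2 →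
        x ^ 2 ≤ a1 * b1 → y ^ 2 ≤ a2 * b2 →
        ((x + y) / 2) ^ 2 ≤ ((a1 + a2) / 2) * ((b1 + b2) / 2) := by
      intro x y a1 a2 b1 b2 ha1 ha2 hb1 hb2 hx hy
      have hxy : 2 * (x * y) ≤ a1 * b2 + a2 * b1 := by
        have h3 : (x * y) ^ 2 ≤ (a1 * b2) * (a2 * b1) := by
          calc (x * y) ^ 2 = x ^ 2 * y ^ 2 := by ring
            _ ≤ (a1 * b1) * (a2 * b2) :=
              mul_le_mul hx hy (sq_nonneg _) (mul_nonneg ha1 hb1)
            _ = (a1 * b2) * (a2 * b1) := by ring
        have h4 : (2 * (x * y)) ^ 2 ≤ (a1 * b2 + a2 * b1) ^ 2 := by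
          nlinarith [sq_nonneg (a1 * b2 - a2 * b1)]
        have h5 : 0 ≤ a1 * b2 + a2 * b1 := by positivity
        exact le_of_sq_le_sq' h4 h5
      nlinarith
    exact key _ _ _ _ _ _ a1 a2 b1 b2 h1 h2
  where
    le_of_sq_le_sq' {x y : ℝ} (h : x ^ 2 ≤ y ^ 2) (hy : 0 ≤ y) : x ≤ y := by
      have := abs_le_abs_of_sq_le_sq' h
      rw [abs_of_nonneg hy] at this
      exact (le_abs_self x).trans this
    abs_le_abs_of_sq_le_sq' {x y : ℝ} (h : x ^ 2 ≤ y ^ 2) : |x| ≤ |y| := sq_le_sq.mp h

/-! ## complex averages -/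

/-- complex average at the depth `k` below `v` -/
noncomputable def LC : ℕ → (Node → ℂ) → Node → ℂ
  | 0, f, v => f v
  | k + 1, f, v => (LC k f (true :: v) + LC k f (false :: v)) / 2

theorem LC_add (k : ℕ) (f g : Node → ℂ) (v : Node) :
    LC k (fun w => f w + g w) v = LC k f v + LC k g v := by
  induction k generalizing v with
  | zero => simp [LC]
  | succ k ih => simp only [LC, ih]; ring

theorem LC_smul (k : ℕ) (c : ℂ) (f : Node → ℂ) (v : Node) :
    LC k (fun w => c * f w) v = c * LC k f v := by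
  induction k generalizing v with
  | zero => simp [LC]
  | succ k ih => simp only [LC, ih]; ring

theorem LC_const (k : ℕ) (c : ℂ) (v : Node) : LC k (fun _ => c) v = c := by
  induction k generalizing v with
  | zero => simp [LC]
  | succ k ih => simp only [LC, ih]; ring

theorem LC_sub (k : ℕ) (f g : Node → ℂ) (v : Node) :
    LC k (fun w => f w - g w) v = LC k f v - LC k g v := by
  induction k generalizing v with
  | zero => simp [LC]
  | succ k ih => simp only [LC, ih]; ring

theorem LC_sum {ι : Type*} (s : Finset ι) (k : ℕ) (f : ι → Node → ℂ) (v : Node) :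
    LC k (fun w => ∑ i ∈ s, f i w) v = ∑ i ∈ s, LC k (f i) v := by
  induction k generalizing v with
  | zero => simp [LC]
  | succ k ih => simp only [LC, ih]; rw [← Finset.sum_add_distrib, Finset.sum_div]

theorem LC_congr' (k : ℕ) {f g : Node → ℂ} (v : Node)
    (h : ∀ w : Node, w.length = k + v.length → f w = g w) : LC k f v = LC k g v := by
  induction k generalizing v with
  | zero => exact h v (by omega)
  | succ k ih =>
    simp only [LC]
    rw [ih (true :: v) (fun w hw => h w (by simp only [List.length_cons] at hw; omega)),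
      ih (false :: v) (fun w hw => h w (by simp only [List.length_cons] at hw; omega))]

theorem norm_LC_le (k : ℕ) (f : Node → ℂ) (v : Node) : ‖LC k f v‖ ≤ Lf k (fun w => ‖f w‖) v := by
  induction k generalizing v with
  | zero => simp [LC, Lf]
  | succ k ih =>
    simp only [LC, Lf]
    rw [norm_div]
    have h1 := norm_add_le (LC k f (true :: v)) (LC k f (false :: v))
    have h2 := ih (true :: v)
    have h3 := ih (false :: v)
    have h4 : ‖(2 : ℂ)‖ = 2 := by simp
    rw [h4]
    linarith

theorem LC_ofReal (k : ℕ) (f : Node → ℝ) (v : Node) :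
    LC k (fun w => (f w : ℂ)) v = (Lf k f v : ℝ) := by
  induction k generalizing v with
  | zero => simp [LC, Lf]
  | succ k ih => simp only [LC, Lf, ih]; push_cast; ring

theorem LC_re (k : ℕ) (f : Node → ℂ) (v : Node) :
    (LC k f v).re = Lf k (fun w => (f w).re) v := by
  induction k generalizing v with
  | zero => simp [LC, Lf]
  | succ k ih =>
    simp only [LC, Lf, ← ih]
    simp

/-! ## leaf averages -/

/-- real average over the leaves (nodes of length `n`) below `v` -/
noncomputable def A (n : ℕ) (f : Node → ℝ) (v : Node) : ℝ := Lf (n - v.length) f v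

/-- complex average over the leaves below `v` -/
noncomputable def AC (n : ℕ) (f : Node → ℂ) (v : Node) : ℂ := LC (n - v.length) f v

theorem A_step {n : ℕ} (f : Node → ℝ) {v : Node} (hv : v.length < n) :
    A n f v = (A n f (true :: v) + A n f (false :: v)) / 2 := by
  unfold A
  obtain ⟨k, hk⟩ : ∃ k, n - v.length = k + 1 := ⟨n - v.length - 1, by omega⟩
  have h1 : n - (true :: v).length = k := by simp only [List.length_cons]; omega
  have h2 : n - (false :: v).length = k := by simp only [List.length_cons]; omega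
  rw [hk, h1, h2]; rfl

theorem AC_step {n : ℕ} (f : Node → ℂ) {v : Node} (hv : v.length < n) :
    AC n f v = (AC n f (true :: v) + AC n f (false :: v)) / 2 := by
  unfold AC
  obtain ⟨k, hk⟩ : ∃ k, n - v.length = k + 1 := ⟨n - v.length - 1, by omega⟩
  have h1 : n - (true :: v).length = k := by simp only [List.length_cons]; omega
  have h2 : n - (false :: v).length = k := by simp only [List.length_cons]; omega
  rw [hk, h1, h2]; rfl

theorem A_leaf {n : ℕ} (f : Node → ℝ) {v : Node} (hv : n ≤ v.length) : A n f v = f v := by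
  unfold A
  rw [Nat.sub_eq_zero_of_le hv]; rfl

theorem AC_leaf {n : ℕ} (f : Node → ℂ) {v : Node} (hv : n ≤ v.length) : AC n f v = f v := by
  unfold AC
  rw [Nat.sub_eq_zero_of_le hv]; rfl

theorem A_add (n : ℕ) (f g : Node → ℝ) (v : Node) :
    A n (fun w => f w + g w) v = A n f v + A n g v := Lf_add _ _ _ _

theorem A_smul (n : ℕ) (c : ℝ) (f : Node → ℝ) (v : Node) :
    A n (fun w => c * f w) v = c * A n f v := Lf_smul _ _ _ _

theorem A_sum {ι : Type*} (s : Finset ι) (n : ℕ) (f : ι → Node → ℝ) (v : Node) :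
    A n (fun w => ∑ i ∈ s, f i w) v = ∑ i ∈ s, A n (f i) v := Lf_sum _ _ _ _

theorem A_nonneg {n : ℕ} {f : Node → ℝ} (v : Node) (h : ∀ w, 0 ≤ f w) : 0 ≤ A n f v :=
  Lf_nonneg _ _ h

theorem A_mono {n : ℕ} {f g : Node → ℝ} (v : Node) (h : ∀ w, f w ≤ g w) : A n f v ≤ A n g v :=
  Lf_mono _ _ h

theorem A_const (n : ℕ) (c : ℝ) (v : Node) : A n (fun _ => c) v = c := Lf_const _ _ _

theorem AC_add (n : ℕ) (f g : Node → ℂ) (v : Node) :
    AC n (fun w => f w + g w) v = AC n f v + AC n g v := LC_add _ _ _ _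

theorem AC_sub (n : ℕ) (f g : Node → ℂ) (v : Node) :
    AC n (fun w => f w - g w) v = AC n f v - AC n g v := LC_sub _ _ _ _

theorem AC_smul (n : ℕ) (c : ℂ) (f : Node → ℂ) (v : Node) :
    AC n (fun w => c * f w) v = c * AC n f v := LC_smul _ _ _ _

theorem AC_sum {ι : Type*} (s : Finset ι) (n : ℕ) (f : ι → Node → ℂ) (v : Node) :
    AC n (fun w => ∑ i ∈ s, f i w) v = ∑ i ∈ s, AC n (f i) v := LC_sum _ _ _ _

theorem norm_AC_le (n : ℕ) (f : Node → ℂ) (v : Node) : ‖AC n f v‖ ≤ A n (fun w => ‖f w‖) v :=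
  norm_LC_le _ _ _

theorem AC_ofReal (n : ℕ) (f : Node → ℝ) (v : Node) :
    AC n (fun w => (f w : ℂ)) v = (A n f v : ℝ) := LC_ofReal _ _ _

theorem AC_re (n : ℕ) (f : Node → ℂ) (v : Node) :
    (AC n f v).re = A n (fun w => (f w).re) v := LC_re _ _ _

end Vale.Agent.P091.T.H937
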