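import Vale.Agent.P091.T.H937.Energy
import Vale.Agent.P091.T8.H655.Path

/-! # P091, row T8: bridge to the Riesz lists of helper655 -/

namespace Vale.Agent.P091.T.H937

open Vale.Agent.P091.H413 Finset
open Vale.Agent.P091.T8.H655 (ms KLm YT Chr)

/-- the leaves at depth `k` below a node -/
def lv : ℕ → Node → Finset Node
  | 0, v => {v}
  | k + 1, v => lv k (true :: v) ∪ lv k (false :: v)

theorem lv_mem {k : ℕ} {v w : Node} (h : w ∈ lv k v) : v <:+ w ∧ w.length = k + v.length := by
  induction k generalizing v with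
  | zero =>
    simp only [lv, Finset.mem_singleton] at h
    subst h
    exact ⟨List.suffix_refl _, by omega⟩
  | succ k ih =>
    simp only [lv, Finset.mem_union] at h
    rcases h with h | h
    · obtain ⟨h1, h2⟩ := ih h
      exact ⟨(List.suffix_cons _ _).trans h1, by simp only [List.length_cons] at h2; omega⟩
    · obtain ⟨h1, h2⟩ := ih h
      exact ⟨(List.suffix_cons _ _).trans h1, by simp only [List.length_cons] at h2; omega⟩

theorem lv_disj (k : ℕ) (v : Node) : Disjoint (lv k (true :: v)) (lv k (false :: v)) := by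
  rw [Finset.disjoint_left]
  intro w h1 h2
  have a1 := (lv_mem h1).1
  have a2 := (lv_mem h2).1
  have h3 : (true :: v) <:+ (false :: v) :=
    List.suffix_of_suffix_length_le a1 a2 (by simp)
  have h4 : true :: v = false :: v := h3.eq_of_length (by simp)
  simp at h4

theorem ms_lv (k : ℕ) (f : Node → ℝ) (v : Node) : ms f (lv k v) = 2 ^ k * Lf k f v := by
  induction k generalizing v with
  | zero => simp [lv, ms, Lf]
  | succ k ih =>
    have e : ms f (lv (k + 1) v) = ms f (lv k (true :: v)) + ms f (lv k (false :: v)) := by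
      unfold ms
      exact Finset.sum_union (lv_disj k v)
    rw [e, ih, ih]
    simp only [Lf]
    ring

theorem sum_lv (k : ℕ) (f : Node → ℂ) (v : Node) : ∑ y ∈ lv k v, f y = 2 ^ k * LC k f v := by
  induction k generalizing v with
  | zero => simp [lv, LC]
  | succ k ih =>
    have e : ∑ y ∈ lv (k + 1) v, f y = ∑ y ∈ lv k (true :: v), f y + ∑ y ∈ lv k (false :: v), f y :=
      Finset.sum_union (lv_disj k v)
    rw [e, ih, ih]
    simp only [LC]
    ring

variable {n : ℕ} {D : ℝ} (Y : YSide n D)

/-- the data of helper655 on the list tree -/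
noncomputable def toYT : YT Node n where
  V v := lv (n - v.length) v
  ν _ := 1
  m := Y.m
  ν_pos _ := one_pos
  split v hv := by
    have : n - v.length = n - (v.length + 1) + 1 := by omega
    simp only [List.length_cons]
    rw [this]; rfl
  disj v hv := by
    simp only [List.length_cons]
    exact lv_disj _ _
  half v hv b := by
    rw [ms_lv, ms_lv, Lf_const, Lf_const]
    have : n - v.length = n - (b :: v).length + 1 := by simp only [List.length_cons]; omega
    rw [this, pow_succ]; ring
  root_pos := by rw [ms_lv, Lf_const]; positivity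
  m_nonneg := Y.nonneg
  m_rem v hv b y _ := Y.rem v hv b y

theorem toYT_V (v : Node) : (toYT Y).V v = lv (n - v.length) v := rfl

theorem ms_V (f : Node → ℝ) (v : Node) :
    ms f ((toYT Y).V v) = 2 ^ (n - v.length) * A n f v := ms_lv _ _ _

theorem msν_V (v : Node) : ms (toYT Y).ν ((toYT Y).V v) = 2 ^ (n - v.length) := by
  rw [ms_V]
  have : A n (toYT Y).ν v = 1 := A_const n 1 v
  rw [this, mul_one]

theorem toYT_g (v : Node) : (toYT Y).g v = Y.G v := by
  have h0 : (0 : ℝ) < 2 ^ (n - v.length) := by positivity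
  have e1 : (toYT Y).g v = ms (Y.m v) ((toYT Y).V v) / ms (toYT Y).ν ((toYT Y).V v) := rfl
  rw [e1, ms_V, msν_V]
  unfold YSide.G
  field_simp

theorem toYT_g' (v : Node) : (toYT Y).g' v = Y.G' v := by
  cases v with
  | nil => exact toYT_g Y []
  | cons b v =>
    have h0 : (0 : ℝ) < 2 ^ (n - (b :: v).length) := by positivity
    rw [YT.g'_cons]
    have e1 : ms ((toYT Y).m v) ((toYT Y).V (b :: v)) =
      2 ^ (n - (b :: v).length) * A n (Y.m v) (b :: v) := ms_V Y _ _
    rw [e1, msν_V]
    unfold YSide.G'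
    field_simp

theorem toYT_loss (v : Node) : (toYT Y).loss v = Y.loss v := by
  unfold YT.loss YT.R YSide.loss YSide.R
  rw [toYT_g, toYT_g']

variable {M : ℕ} [NeZero M]

/-- the letters -/
noncomputable def chr (M : ℕ) [NeZero M] : Chr (ZMod M) Node where
  e := ch
  e_add := ch_add
  norm_e := norm_ch

theorem ft_V (w : Node → ℝ) (v : Node) (θ : ZMod M) :
    (chr M).ft w ((toYT Y).V v) θ =
      2 ^ (n - v.length) * AC n (fun y => (w y : ℂ) * ch θ y) v := sum_lv _ _ _

omit [NeZero M] in
theorem span_neg {L : List (ZMod M × ℂ)} {r : ZMod M} (h : r ∈ Chr.Sp L) :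
    InSpan (L.map Prod.fst) (-r) := by
  induction L generalizing r with
  | nil =>
    simp only [Chr.Sp, Set.mem_singleton_iff] at h
    subst h
    simp [InSpan]
  | cons a L ih =>
    simp only [List.map_cons]
    rcases h with h | h | h
    · exact Or.inl (ih h)
    · refine Or.inr (Or.inr ?_)
      have := ih h
      rw [neg_sub] at this
      have e : -r + a.1 = a.1 - r := by ring
      rw [e]; exact this
    · refine Or.inr (Or.inl ?_)
      have := ih h
      have e : -r - a.1 = -(r + a.1) := by ring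
      rw [e]; exact this

/-- root value of the potential -/
theorem KL_root (hD : 0 ≤ D) : KLm (Y.m []) (toYT Y).ν ((toYT Y).V []) / 2 ^ n ≤ D + 1 := by
  have h2n : (0 : ℝ) < 2 ^ n := by positivity
  have hV : (toYT Y).V [] = lv n [] := by rw [toYT_V]; simp
  rw [div_le_iff₀ h2n]
  unfold KLm
  have e1 : ∑ y ∈ (toYT Y).V [], Y.m [] y * Real.log (Y.m [] y / (toYT Y).ν y) =
      ms (fun y => psi (Y.m [] y)) (lv n []) := by
    rw [hV]
    unfold ms psi
    refine Finset.sum_congr rfl fun y _ => ?_
    have : (toYT Y).ν y = 1 := rfl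
    rw [this, div_one]
  have e2 : ms (Y.m []) ((toYT Y).V []) = 2 ^ n * Lf n (Y.m []) [] := by rw [hV, ms_lv]
  have e3 : ms (toYT Y).ν ((toYT Y).V []) = 2 ^ n := by
    rw [msν_V]; simp
  rw [e1, ms_lv, e2, e3]
  set g := Lf n (Y.m []) [] with hg
  have hg0 : 0 ≤ g := Lf_nonneg _ _ (Y.nonneg [])
  have hg1 : g ≤ 1 := by
    have := Y.avg
    unfold A at this
    simpa using this
  have h1 : Lf n (fun y => psi (Y.m [] y)) [] ≤ D * g := by
    rw [hg, ← Lf_smul]
    exact Lf_mono _ _ fun y => psi_le_mul (Y.nonneg _ _) (Y.le y)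
  have h3 : (2 : ℝ) ^ n * g * Real.log (2 ^ n / (2 ^ n * g)) ≤ 2 ^ n := by
    rcases eq_or_lt_of_le hg0 with h | h
    · rw [← h]; simp
    · have : (2 : ℝ) ^ n / (2 ^ n * g) = 1 / g := by field_simp
      rw [this]
      have h4 : Real.log (1 / g) ≤ 1 / g - 1 := Real.log_le_sub_one_of_pos (by positivity)
      have h5 := mul_le_mul_of_nonneg_left h4 (mul_pos h2n h).le
      have e4 : (2 : ℝ) ^ n * g * (1 / g - 1) = 2 ^ n - 2 ^ n * g := by field_simp
      rw [e4] at h5
      have : 0 ≤ (2 : ℝ) ^ n * g := by positivity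
      linarith
  have h6 : D * g ≤ D := by nlinarith
  have h7 := mul_le_mul_of_nonneg_left (h1.trans h6) h2n.le
  linarith

end Vale.Agent.P091.T.H937
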