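import Vale.Agent.P091.T.H937.Lst

/-! # P091, row T8: averages of a character over a node -/

namespace Vale.Agent.P091.T.H937

open Vale.Agent.P091.H413 Finset

variable {M : ℕ} [NeZero M]

/-- the basic unit -/
noncomputable def ze (r : ZMod M) : ℂ := ZMod.stdAddChar r

theorem norm_ze (r : ZMod M) : ‖ze r‖ = 1 := AddChar.norm_apply _ _

theorem ch_eq_pow (r : ZMod M) (y : Node) : ch r y = ze r ^ ix y := by
  unfold ch ze
  rw [mul_comm, ← nsmul_eq_mul, AddChar.map_nsmul_eq_pow]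

/-- modulus of `ζ - 1` -/
noncomputable def aa (r : ZMod M) : ℝ := ‖ze r - 1‖

theorem aa_nonneg (r : ZMod M) : 0 ≤ aa r := norm_nonneg _

theorem norm_pow_sub_one_le (z : ℂ) (hz : ‖z‖ = 1) (k : ℕ) : ‖z ^ k - 1‖ ≤ k * ‖z - 1‖ := by
  induction k with
  | zero => simp
  | succ k ih =>
    have e : z ^ (k + 1) - 1 = z ^ k * (z - 1) + (z ^ k - 1) := by ring
    rw [e]
    refine (norm_add_le _ _).trans ?_
    rw [norm_mul, norm_pow, hz, one_pow, one_mul]
    push_cast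
    linarith

/-- the Dirichlet product of height `k` -/
noncomputable def DD (z : ℂ) : ℕ → ℂ
  | 0 => 1
  | k + 1 => DD z k * ((1 + z ^ (2 ^ k)) / 2)

theorem DD_tele (z : ℂ) (k : ℕ) : (2 : ℂ) ^ k * DD z k * (z - 1) = z ^ (2 ^ k) - 1 := by
  induction k with
  | zero => simp [DD]
  | succ k ih =>
    simp only [DD]
    calc (2 : ℂ) ^ (k + 1) * (DD z k * ((1 + z ^ (2 ^ k)) / 2)) * (z - 1)
        = ((2 : ℂ) ^ k * DD z k * (z - 1)) * (1 + z ^ (2 ^ k)) := by ring
      _ = z ^ (2 ^ (k + 1)) - 1 := by rw [ih, pow_succ, pow_mul]; ring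

theorem norm_DD_le_one {z : ℂ} (hz : ‖z‖ = 1) (k : ℕ) : ‖DD z k‖ ≤ 1 := by
  induction k with
  | zero => simp [DD]
  | succ k ih =>
    simp only [DD]
    rw [norm_mul, norm_div]
    have h1 : ‖1 + z ^ (2 ^ k)‖ ≤ 2 := by
      refine (norm_add_le _ _).trans ?_
      rw [norm_pow, hz, one_pow, norm_one]; norm_num
    have h2 : ‖(2 : ℂ)‖ = 2 := by simp
    rw [h2]
    have h3 : ‖1 + z ^ (2 ^ k)‖ / 2 ≤ 1 := by linarith
    calc ‖DD z k‖ * (‖1 + z ^ (2 ^ k)‖ / 2) ≤ 1 * 1 :=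
          mul_le_mul ih h3 (by positivity) (by norm_num)
      _ = 1 := by norm_num

theorem norm_DD_le {z : ℂ} (hz : ‖z‖ = 1) (k : ℕ) : 2 ^ k * ‖z - 1‖ * ‖DD z k‖ ≤ 2 := by
  have h := congrArg norm (DD_tele z k)
  rw [norm_mul, norm_mul, norm_pow] at h
  have h2 : ‖(2 : ℂ)‖ = 2 := by simp
  rw [h2] at h
  have h3 : ‖z ^ (2 ^ k) - 1‖ ≤ 2 := by
    refine (norm_sub_le _ _).trans ?_
    rw [norm_pow, hz, one_pow, norm_one]; norm_num
  calc 2 ^ k * ‖z - 1‖ * ‖DD z k‖ = 2 ^ k * ‖DD z k‖ * ‖z - 1‖ := by ring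
    _ ≤ 2 := by rw [h]; exact h3

/-- average of a character over a node of height `k` -/
theorem LC_ch (r : ZMod M) (k : ℕ) (w : Node) :
    LC k (fun y => ch r y) w = ze r ^ (2 ^ k * ix w) * DD (ze r) k := by
  induction k generalizing w with
  | zero => simp [LC, DD, ch_eq_pow]
  | succ k ih =>
    simp only [LC, DD, ih]
    have e1 : ix (true :: w) = 2 * ix w := by simp [ix]
    have e2 : ix (false :: w) = 2 * ix w + 1 := by simp [ix]
    rw [e1, e2]
    have e3 : ze r ^ (2 ^ k * (2 * ix w)) = ze r ^ (2 ^ (k + 1) * ix w) := by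
      congr 1; ring
    have e4 : ze r ^ (2 ^ k * (2 * ix w + 1)) = ze r ^ (2 ^ (k + 1) * ix w) * ze r ^ (2 ^ k) := by
      rw [← pow_add]; congr 1; ring
    rw [e3, e4]
    ring

/-- comparison with the value at the left end -/
theorem LC_mul_ch (r : ZMod M) (f : Node → ℂ) (k : ℕ) (w : Node) :
    ‖LC k (fun y => f y * ch r y) w - ze r ^ (2 ^ k * ix w) * LC k f w‖ ≤
      ((2 : ℝ) ^ k - 1) * aa r * Lf k (fun y => ‖f y‖) w := by
  induction k generalizing w with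
  | zero =>
    simp only [LC, Lf, pow_zero, one_mul, sub_self, zero_mul]
    rw [ch_eq_pow, mul_comm (f w), sub_self, norm_zero]
  | succ k ih =>
    simp only [LC, Lf]
    have e1 : ix (true :: w) = 2 * ix w := by simp [ix]
    have e2 : ix (false :: w) = 2 * ix w + 1 := by simp [ix]
    have h1 := ih (true :: w)
    have h2 := ih (false :: w)
    rw [e1] at h1
    rw [e2] at h2
    have e3 : ze r ^ (2 ^ k * (2 * ix w)) = ze r ^ (2 ^ (k + 1) * ix w) := by
      congr 1; ring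
    have e4 : ze r ^ (2 ^ k * (2 * ix w + 1)) = ze r ^ (2 ^ (k + 1) * ix w) * ze r ^ (2 ^ k) := by
      rw [← pow_add]; congr 1; ring
    rw [e3] at h1
    rw [e4] at h2
    set u := ze r ^ (2 ^ (k + 1) * ix w) with hu
    have hun : ‖u‖ = 1 := by rw [hu, norm_pow, norm_ze, one_pow]
    set a1 := LC k (fun y => f y * ch r y) (true :: w)
    set a2 := LC k (fun y => f y * ch r y) (false :: w)
    set b1 := LC k f (true :: w)
    set b2 := LC k f (false :: w)
    have e5 : (a1 + a2) / 2 - u * ((b1 + b2) / 2) =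
        ((a1 - u * b1) + (a2 - u * ze r ^ (2 ^ k) * b2) + u * (ze r ^ (2 ^ k) - 1) * b2) / 2 := by
      ring
    rw [e5, norm_div]
    have h2n : ‖(2 : ℂ)‖ = 2 := by simp
    rw [h2n]
    have h3 : ‖u * (ze r ^ (2 ^ k) - 1) * b2‖ ≤
        2 ^ k * aa r * Lf k (fun y => ‖f y‖) (false :: w) := by
      rw [norm_mul, norm_mul, hun, one_mul]
      have h4 := norm_pow_sub_one_le (ze r) (norm_ze r) (2 ^ k)
      have h5 : ‖b2‖ ≤ Lf k (fun y => ‖f y‖) (false :: w) := norm_LC_le _ _ _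
      refine mul_le_mul ?_ h5 (norm_nonneg _) (by have := aa_nonneg r; positivity)
      unfold aa
      push_cast at h4
      exact h4
    have h6 := norm_add₃_le (a := a1 - u * b1) (b := a2 - u * ze r ^ (2 ^ k) * b2)
      (c := u * (ze r ^ (2 ^ k) - 1) * b2)
    have h7 : 0 ≤ Lf k (fun y => ‖f y‖) (true :: w) := Lf_nonneg _ _ fun _ => norm_nonneg _
    have h8 : 0 ≤ Lf k (fun y => ‖f y‖) (false :: w) := Lf_nonneg _ _ fun _ => norm_nonneg _
    have ha := aa_nonneg r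
    have h9 : 0 ≤ 2 ^ k * aa r * Lf k (fun y => ‖f y‖) (true :: w) := by positivity
    rw [div_le_iff₀ (by norm_num : (0 : ℝ) < 2)]
    rw [pow_succ]
    have e6 : ((2 : ℝ) ^ k * 2 - 1) * aa r *
        ((Lf k (fun y => ‖f y‖) (true :: w) + Lf k (fun y => ‖f y‖) (false :: w)) / 2) * 2 =
        ((2 : ℝ) ^ k - 1) * aa r * Lf k (fun y => ‖f y‖) (true :: w) +
        ((2 : ℝ) ^ k - 1) * aa r * Lf k (fun y => ‖f y‖) (false :: w) +
        2 ^ k * aa r * Lf k (fun y => ‖f y‖) (true :: w) +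
        2 ^ k * aa r * Lf k (fun y => ‖f y‖) (false :: w) := by ring
    rw [e6]
    linarith

/-- a difference over the two children -/
theorem LC_ch_diff (r : ZMod M) (k : ℕ) (w : Node) :
    ‖LC k (fun y => ch r y) (true :: w) - LC k (fun y => ch r y) (false :: w)‖ ≤
      2 ^ k * aa r ∧
    2 ^ k * aa r * ‖LC k (fun y => ch r y) (true :: w) - LC k (fun y => ch r y) (false :: w)‖
      ≤ 4 := by
  rw [LC_ch, LC_ch]
  have e1 : ix (true :: w) = 2 * ix w := by simp [ix]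
  have e2 : ix (false :: w) = 2 * ix w + 1 := by simp [ix]
  rw [e1, e2]
  have e3 : ze r ^ (2 ^ k * (2 * ix w)) * DD (ze r) k -
      ze r ^ (2 ^ k * (2 * ix w + 1)) * DD (ze r) k =
      ze r ^ (2 ^ k * (2 * ix w)) * (1 - ze r ^ (2 ^ k)) * DD (ze r) k := by
    rw [mul_add, pow_add, mul_one]; ring
  rw [e3, norm_mul, norm_mul, norm_pow, norm_ze, one_pow, one_mul]
  have h1 : ‖1 - ze r ^ (2 ^ k)‖ ≤ 2 ^ k * aa r := by
    rw [norm_sub_rev]
    have := norm_pow_sub_one_le (ze r) (norm_ze r) (2 ^ k)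
    push_cast at this
    exact this
  have h2 : ‖1 - ze r ^ (2 ^ k)‖ ≤ 2 := by
    refine (norm_sub_le _ _).trans ?_
    rw [norm_pow, norm_ze, one_pow, norm_one]; norm_num
  have h3 := norm_DD_le_one (norm_ze r) k
  have h4 := norm_DD_le (norm_ze r) k
  have ha := aa_nonneg r
  constructor
  · calc ‖1 - ze r ^ 2 ^ k‖ * ‖DD (ze r) k‖ ≤ (2 ^ k * aa r) * 1 :=
          mul_le_mul h1 h3 (norm_nonneg _) (by positivity)
      _ = _ := mul_one _
  · calc 2 ^ k * aa r * (‖1 - ze r ^ 2 ^ k‖ * ‖DD (ze r) k‖)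
        = (2 ^ k * ‖ze r - 1‖ * ‖DD (ze r) k‖) * ‖1 - ze r ^ 2 ^ k‖ := by unfold aa; ring
      _ ≤ 2 * 2 := mul_le_mul h4 h2 (norm_nonneg _) (by norm_num)
      _ = 4 := by norm_num

end Vale.Agent.P091.T.H937
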