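import Vale.Agent.P091.T.H937.Est

/-! # P091, row T8: energy of the common bound -/

namespace Vale.Agent.P091.T.H937

open Vale.Agent.P091.H413 Finset

theorem Lf_eq_zero (k : ℕ) {f : Node → ℝ} (v : Node) {L : ℕ} (h : ∀ w : Node, L < w.length → f w = 0)
    (hv : L < k + v.length) : Lf k f v = 0 := by
  have h1 : Lf k f v = Lf k (fun _ => 0) v := Lf_congr' _ _ fun w hw => h w (by omega)
  rw [h1, Lf_const]

theorem S_Lf_le (n j : ℕ) {f : Node → ℝ} (hf : ∀ w, 0 ≤ f w) (v : Node)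
    (h : ∀ w : Node, n + v.length < w.length → f w = 0) :
    S (n + 1) (Lf j f) v ≤ S (n + 1) f v := by
  induction j with
  | zero => exact le_rfl
  | succ j ih =>
    have e1 : Lf (j + 1) f = fun w => (Lf j f (true :: w) + Lf j f (false :: w)) / 2 := rfl
    rw [e1, S_child]
    have h2 : Lf (n + 1) (Lf j f) v = 0 := by
      refine Lf_eq_zero (L := n + v.length) _ _ (fun w hw => ?_) (by omega)
      exact Lf_eq_zero (L := n + v.length) _ _ h (by omega)
    have h3 : 0 ≤ Lf j f v := Lf_nonneg _ _ hf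
    linarith

theorem S_sum {ι : Type*} (s : Finset ι) (n : ℕ) (f : ι → Node → ℝ) (v : Node) :
    S n (fun w => ∑ i ∈ s, f i w) v = ∑ i ∈ s, S n (f i) v := by
  classical
  induction s using Finset.induction_on with
  | empty =>
    simp only [Finset.sum_empty]
    have := S_smul n 0 (fun _ => 0) v
    simpa using this
  | insert i s hi ih =>
    simp only [Finset.sum_insert hi]
    rw [S_add, ih]

variable {M : ℕ} [NeZero M] {n : ℕ} {D : ℝ} (Y : YSide n D) (N : Noise M) {k : ℕ} (Q : Grow M k)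

/-- the gap, cut at the leaves -/
noncomputable def Gap0 (v : Node) : ℝ := if v.length < n then Gap N n (Q.L v) (Y.m v) v else 0

theorem Gap0_nonneg (v : Node) : 0 ≤ Gap0 Y N Q v := by
  unfold Gap0
  split_ifs with h
  · exact Gap_nonneg N n _ (Y.nonneg v) h
  · exact le_rfl

theorem Lf_G_le (j : ℕ) (v : Node) (h : j + v.length ≤ n) : Lf j Y.G v ≤ Y.G v := by
  have h1 := G_sub_Lf Y j v h
  have h2 : 0 ≤ ∑ i ∈ range j, Lf (i + 1) (Rt Y) v :=
    Finset.sum_nonneg fun i _ => Lf_nonneg _ _ (Rt_nonneg Y)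
  linarith

theorem a_sq_le (j : ℕ) (v : Node) (hG : Y.G v ≤ 2) :
    Lf j (tau0 Y N Q) v ^ 2 ≤ 24 * Lf j (Gap0 Y N Q) v := by
  have h0 : 0 ≤ Lf j (Gap0 Y N Q) v := Lf_nonneg _ _ (Gap0_nonneg Y N Q)
  by_cases hj : j + v.length ≤ n
  · have h1 : Lf j (tau0 Y N Q) v ^ 2 ≤ Lf j (fun w => 12 * Y.G w) v * Lf j (Gap0 Y N Q) v := by
      refine Lf_sq_le _ _ (fun w => by have := Y.G_nonneg w; positivity)
        (Gap0_nonneg Y N Q) fun w => ?_
      unfold tau0 Gap0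
      split_ifs with hw
      · exact tau_sq_le N n _ (Y.nonneg w) hw
      · simp
    rw [Lf_smul] at h1
    have h2 := Lf_G_le Y j v hj
    have h3 : 12 * Lf j Y.G v * Lf j (Gap0 Y N Q) v ≤ 24 * Lf j (Gap0 Y N Q) v :=
      mul_le_mul_of_nonneg_right (by linarith) h0
    linarith
  · push Not at hj
    have : Lf j (tau0 Y N Q) v = 0 := by
      refine Lf_eq_zero (L := n) _ _ (fun w hw => ?_) hj
      unfold tau0
      rw [if_neg (by omega)]
    rw [this]
    linarith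

theorem b_le (j : ℕ) (v : Node) (hv : v.length ≤ n) (hG : Y.G v ≤ 2) :
    ∑ i ∈ range j, Lf (i + 1) (Rt Y) v ≤ 2 := by
  have hR := Rt_nonneg Y
  by_cases hj : j + v.length ≤ n
  · rw [← G_sub_Lf Y j v hj]
    have : 0 ≤ Lf j Y.G v := Lf_nonneg _ _ Y.G_nonneg
    linarith
  · push Not at hj
    have h1 : ∑ i ∈ range j, Lf (i + 1) (Rt Y) v = ∑ i ∈ range (n - v.length),
        Lf (i + 1) (Rt Y) v := by
      symm
      refine Finset.sum_subset (fun i hi => ?_) fun i _ hi => ?_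
      · rw [Finset.mem_range] at hi ⊢; omega
      · rw [Finset.mem_range] at hi
        refine Lf_eq_zero (L := n) _ _ (fun w hw => ?_) (by omega)
        unfold Rt
        rw [if_neg (by omega)]
    rw [h1, ← G_sub_Lf Y (n - v.length) v (by omega)]
    have : 0 ≤ Lf (n - v.length) Y.G v := Lf_nonneg _ _ Y.G_nonneg
    linarith

theorem om_sq_le (W : ℕ) (v : Node) (hv : v.length ≤ n) (hG : Y.G v ≤ 2) :
    om Y N Q W v ^ 2 ≤ 8 * W * ∑ j ∈ range W, (24 * Lf j (Gap0 Y N Q) v +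
      2 * ∑ i ∈ range W, Lf (i + 1) (Rt Y) v) := by
  unfold om
  rw [mul_pow]
  have h1 : (∑ j ∈ range W, (Lf j (tau0 Y N Q) v + ∑ i ∈ range j, Lf (i + 1) (Rt Y) v)) ^ 2 ≤
      W * ∑ j ∈ range W, (Lf j (tau0 Y N Q) v + ∑ i ∈ range j, Lf (i + 1) (Rt Y) v) ^ 2 := by
    have := sq_sum_le_card_mul_sum_sq (s := range W)
      (f := fun j => Lf j (tau0 Y N Q) v + ∑ i ∈ range j, Lf (i + 1) (Rt Y) v)
    rw [Finset.card_range] at this
    exact this
  have h2 : ∀ j ∈ range W, (Lf j (tau0 Y N Q) v + ∑ i ∈ range j, Lf (i + 1) (Rt Y) v) ^ 2 ≤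
      2 * (24 * Lf j (Gap0 Y N Q) v + 2 * ∑ i ∈ range W, Lf (i + 1) (Rt Y) v) := by
    intro j hj
    have a1 := a_sq_le Y N Q j v hG
    have b1 := b_le Y j v hv hG
    have b0 : 0 ≤ ∑ i ∈ range j, Lf (i + 1) (Rt Y) v :=
      Finset.sum_nonneg fun i _ => Lf_nonneg _ _ (Rt_nonneg Y)
    have b2 : ∑ i ∈ range j, Lf (i + 1) (Rt Y) v ≤ ∑ i ∈ range W, Lf (i + 1) (Rt Y) v := by
      refine Finset.sum_le_sum_of_subset_of_nonneg (fun i hi => ?_)
        fun i _ _ => Lf_nonneg _ _ (Rt_nonneg Y)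
      rw [Finset.mem_range] at hi hj ⊢
      omega
    nlinarith [sq_nonneg (Lf j (tau0 Y N Q) v - ∑ i ∈ range j, Lf (i + 1) (Rt Y) v)]
  have h3 := Finset.sum_le_sum h2
  rw [← Finset.mul_sum] at h3
  have hW : (0 : ℝ) ≤ W := Nat.cast_nonneg W
  have h4 := mul_le_mul_of_nonneg_left h3 hW
  nlinarith

theorem energy (W : ℕ) (hW : 1 ≤ W) (hD : 1 ≤ D) {E : ℝ} (hE0 : 0 ≤ E)
    (hE : S (n + 1) Y.loss [] ≤ E) (T' : Node → Prop) [DecidablePred T']
    (hT : ∀ v, T' v → Y.G v ≤ 2) :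
    S n (fun v => if T' v then om Y N Q W v ^ 2 else 0) [] ≤
      400 * (W : ℝ) ^ 3 * (D + E + k * Real.log (20 * ((k : ℝ) + 1))) := by
  have hW0 : (1 : ℝ) ≤ W := by exact_mod_cast hW
  have h1 : S n (fun v => if T' v then om Y N Q W v ^ 2 else 0) [] ≤
      S n (fun v => 8 * W * ∑ j ∈ range W, (24 * Lf j (Gap0 Y N Q) v +
      2 * ∑ i ∈ range W, Lf (i + 1) (Rt Y) v)) [] := by
    refine S_mono n [] fun w hw => ?_
    have hw' : w.length < n := by simpa using hw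
    split_ifs with h
    · exact om_sq_le Y N Q W w hw'.le (hT w h)
    · refine mul_nonneg (by positivity) (Finset.sum_nonneg fun j _ => ?_)
      have a1 : 0 ≤ Lf j (Gap0 Y N Q) w := Lf_nonneg _ _ (Gap0_nonneg Y N Q)
      have a2 : 0 ≤ ∑ i ∈ range W, Lf (i + 1) (Rt Y) w :=
        Finset.sum_nonneg fun i _ => Lf_nonneg _ _ (Rt_nonneg Y)
      positivity
  refine h1.trans ?_
  rw [S_smul, S_sum]
  -- the gaps
  have hX : S (n + 1) (Gap0 Y N Q) [] ≤ D + k * Real.log (20 * ((k : ℝ) + 1)) + E + 1 := by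
    rw [S_succ_top]
    have e1 : Lf n (Gap0 Y N Q) [] = 0 := by
      have : Lf n (Gap0 Y N Q) [] = Lf n (fun _ => 0) [] := by
        refine Lf_congr' _ _ fun w hw => ?_
        unfold Gap0
        rw [if_neg (by simp at hw; omega)]
      rw [this, Lf_const]
    rw [e1, add_zero]
    refine le_trans (S_mono n [] fun w hw => ?_) (S_Gap_le N Y Q (by linarith) hE)
    have hw' : w.length < n := by simpa using hw
    unfold Gap0
    rw [if_pos hw']
  have hR : S (n + 1) (Rt Y) [] ≤ 1 := by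
    have h2 : S (n + 1) (Rt Y) [] ≤ S (n + 1) Y.R [] := by
      refine S_mono (n + 1) [] fun w hw => ?_
      have hw' : w.length < n + 1 := by simpa using hw
      unfold Rt
      rw [if_pos (by omega)]
    have h3 := Y.S_R n [] (by simp)
    have h4 : 0 ≤ Lf n Y.G [] := Lf_nonneg _ _ Y.G_nonneg
    have h5 : Y.G' [] ≤ 1 := Y.avg
    linarith
  have hSmono : ∀ f : Node → ℝ, (∀ w, 0 ≤ f w) → S n f [] ≤ S (n + 1) f [] := by
    intro f hf
    rw [S_succ_top]
    have := Lf_nonneg n ([] : Node) hf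
    linarith
  have ha : ∀ j, S n (Lf j (Gap0 Y N Q)) [] ≤ D + k * Real.log (20 * ((k : ℝ) + 1)) + E + 1 := by
    intro j
    refine (hSmono _ fun w => Lf_nonneg _ _ (Gap0_nonneg Y N Q)).trans
      ((S_Lf_le n j (Gap0_nonneg Y N Q) [] fun w hw => ?_).trans hX)
    unfold Gap0
    rw [if_neg (by simp at hw; omega)]
  have hb : ∀ i, S n (Lf (i + 1) (Rt Y)) [] ≤ 1 := by
    intro i
    refine (hSmono _ fun w => Lf_nonneg _ _ (Rt_nonneg Y)).trans
      ((S_Lf_le n (i + 1) (Rt_nonneg Y) [] fun w hw => ?_).trans hR)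
    unfold Rt
    rw [if_neg (by simp at hw; omega)]
  have hsum : ∀ j ∈ range W, S n (fun v => 24 * Lf j (Gap0 Y N Q) v +
      2 * ∑ i ∈ range W, Lf (i + 1) (Rt Y) v) [] ≤
      24 * (D + k * Real.log (20 * ((k : ℝ) + 1)) + E + 1) + 2 * W := by
    intro j _
    rw [S_add, S_smul, S_smul, S_sum]
    have h6 : ∑ i ∈ range W, S n (fun w => Lf (i + 1) (Rt Y) w) [] ≤ W := by
      refine (Finset.sum_le_sum fun i _ => hb i).trans ?_
      simp
    have h7 := ha j
    have h8 : S n (fun w => Lf j (Gap0 Y N Q) w) [] = S n (Lf j (Gap0 Y N Q)) [] := rfl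
    rw [h8]
    linarith
  have h9 := Finset.sum_le_sum hsum
  rw [Finset.sum_const, Finset.card_range, nsmul_eq_mul] at h9
  have h10 := mul_le_mul_of_nonneg_left h9 (by positivity : (0 : ℝ) ≤ 8 * W)
  refine h10.trans ?_
  have hΛ : 0 ≤ k * Real.log (20 * ((k : ℝ) + 1)) :=
    mul_nonneg (Nat.cast_nonneg k)
      (Real.log_nonneg (by nlinarith [Nat.cast_nonneg (α := ℝ) k]))
  set X := D + E + k * Real.log (20 * ((k : ℝ) + 1)) with hXdef
  have hX1 : 1 ≤ X := by rw [hXdef]; linarith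
  have e2 : 8 * (W : ℝ) * (W * (24 * (D + k * Real.log (20 * ((k : ℝ) + 1)) + E + 1) + 2 * W)) =
      192 * (W : ℝ) ^ 2 * (X + 1) + 16 * (W : ℝ) ^ 3 := by rw [hXdef]; ring
  rw [e2]
  have h11 : (W : ℝ) ^ 2 ≤ (W : ℝ) ^ 3 := pow_le_pow_right₀ hW0 (by norm_num)
  have h12 : (W : ℝ) ^ 2 * (X + 1) ≤ (W : ℝ) ^ 3 * (2 * X) :=
    mul_le_mul h11 (by linarith) (by linarith) (by positivity)
  have h13 : (W : ℝ) ^ 3 * 1 ≤ (W : ℝ) ^ 3 * X := mul_le_mul_of_nonneg_left hX1 (by positivity)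
  nlinarith

end Vale.Agent.P091.T.H937
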