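import Vale.Agent.P091.T.H937.Tele
import Vale.Agent.P091.T.H937.Char

/-! # P091, row T8: the pointwise estimate -/

namespace Vale.Agent.P091.T.H937

open Vale.Agent.P091.H413 Finset

theorem Lf_mono_desc (k : ℕ) {f g : Node → ℝ} (v : Node)
    (h : ∀ w : Node, v <:+ w → w.length = k + v.length → f w ≤ g w) : Lf k f v ≤ Lf k g v := by
  induction k generalizing v with
  | zero => exact h v (List.suffix_refl _) (by omega)
  | succ k ih =>
    simp only [Lf]
    have h1 := ih (true :: v) (fun w hw hl => h w ((List.suffix_cons _ _).trans hw)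
      (by simp only [List.length_cons] at hl; omega))
    have h2 := ih (false :: v) (fun w hw hl => h w ((List.suffix_cons _ _).trans hw)
      (by simp only [List.length_cons] at hl; omega))
    linarith

theorem Lf_A {n : ℕ} (j : ℕ) (f : Node → ℝ) (v : Node) (h : j + v.length ≤ n) :
    Lf j (A n f) v = A n f v := by
  induction j generalizing v with
  | zero => rfl
  | succ j ih =>
    simp only [Lf]
    rw [ih (true :: v) (by simp only [List.length_cons]; omega),
      ih (false :: v) (by simp only [List.length_cons]; omega), ← A_step f (by omega)]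

theorem LC_AC {n : ℕ} (j : ℕ) (f : Node → ℂ) (v : Node) (h : j + v.length ≤ n) :
    LC j (AC n f) v = AC n f v := by
  induction j generalizing v with
  | zero => rfl
  | succ j ih =>
    simp only [LC]
    rw [ih (true :: v) (by simp only [List.length_cons]; omega),
      ih (false :: v) (by simp only [List.length_cons]; omega), ← AC_step f (by omega)]

theorem norm_LC_sub_le (k : ℕ) {f g : Node → ℂ} {e : Node → ℝ} (v : Node)
    (h : ∀ w : Node, w.length = k + v.length → ‖f w - g w‖ ≤ e w) :
    ‖LC k f v - LC k g v‖ ≤ Lf k e v := by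
  rw [← LC_sub]
  exact (norm_LC_le _ _ _).trans (Lf_mono' _ _ h)

/-- deviation from a constant -/
theorem dev_le {n : ℕ} (P : Node → ℂ) (c : ℂ) (J : ℕ) (v : Node) (h : J + v.length ≤ n) :
    Lf J (fun w => ‖AC n P w - c‖) v ≤ ‖AC n P v - c‖ +
      ∑ j ∈ range J, Lf j (fun w => ‖AC n P (true :: w) - AC n P (false :: w)‖ / 2) v := by
  induction J with
  | zero => simp [Lf]
  | succ J ih =>
    rw [Lf_succ', Finset.sum_range_succ]
    have h1 := ih (by omega)
    have h2 : Lf J (fun w => (‖AC n P (true :: w) - c‖ + ‖AC n P (false :: w) - c‖) / 2) v ≤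
        Lf J (fun w => ‖AC n P w - c‖ + ‖AC n P (true :: w) - AC n P (false :: w)‖ / 2) v := by
      refine Lf_mono' _ _ fun w hw => ?_
      have hs := AC_step P (n := n) (v := w) (by omega)
      have e1 : AC n P (true :: w) - c = (AC n P w - c) +
          (AC n P (true :: w) - AC n P (false :: w)) / 2 := by rw [hs]; ring
      have e2 : AC n P (false :: w) - c = (AC n P w - c) -
          (AC n P (true :: w) - AC n P (false :: w)) / 2 := by rw [hs]; ring
      have n1 := norm_add_le (AC n P w - c) ((AC n P (true :: w) - AC n P (false :: w)) / 2)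
      have n2 := norm_sub_le (AC n P w - c) ((AC n P (true :: w) - AC n P (false :: w)) / 2)
      rw [← e1] at n1
      rw [← e2] at n2
      have e3 : ‖(AC n P (true :: w) - AC n P (false :: w)) / 2‖ =
          ‖AC n P (true :: w) - AC n P (false :: w)‖ / 2 := by
        rw [norm_div]; simp
      rw [e3] at n1 n2
      linarith
    rw [Lf_add] at h2
    linarith

variable {M : ℕ} [NeZero M] {n : ℕ} {D : ℝ} (Y : YSide n D)

/-- the letter mean of `m v` at a child, factorised -/
theorem child_est (s0 r : ZMod M) (v : Node) (b : Bool) (j : ℕ) (hj : j + (v.length + 1) ≤ n) :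
    ‖AC n (fun y => (Y.m v y : ℂ) * ch (s0 + r) y) (b :: v) -
      AC n (fun y => ch r y) (b :: v) * AC n (fun y => (Y.m v y : ℂ) * ch s0 y) v‖ ≤
      ((2 : ℝ) ^ (n - v.length - 1 - j) - 1) * aa r * A n (Y.m v) (b :: v) +
      Lf j (fun w => ‖AC n (fun y => (Y.m v y : ℂ) * ch s0 y) w -
        AC n (fun y => (Y.m v y : ℂ) * ch s0 y) v‖) (b :: v) +
      ((2 : ℝ) ^ (n - v.length - 1 - j) - 1) * aa r * Y.G v := by
  set P : Node → ℂ := fun y => (Y.m v y : ℂ) * ch s0 y with hP
  set h' := n - v.length - 1 - j with hh'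
  set o : ℝ := ((2 : ℝ) ^ h' - 1) * aa r with ho
  have ho0 : 0 ≤ o := mul_nonneg (sub_nonneg.2 (one_le_pow₀ (by norm_num))) (aa_nonneg r)
  have hbl : (b :: v).length = v.length + 1 := rfl
  have hnP : ∀ y, ‖P y‖ = Y.m v y := fun y => by
    simp only [hP]
    rw [norm_mul, norm_ch, mul_one, Complex.norm_real, Real.norm_of_nonneg (Y.nonneg v y)]
  set c : Node → ℂ := fun w => ze r ^ (2 ^ h' * ix w) with hc
  have hcn : ∀ w, ‖c w‖ = 1 := fun w => by simp only [hc]; rw [norm_pow, norm_ze, one_pow]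
  -- the product
  have e0 : (fun y => (Y.m v y : ℂ) * ch (s0 + r) y) = fun y => P y * ch r y := by
    funext y; simp only [hP]; rw [ch_add]; ring
  rw [e0]
  have e1 : AC n (fun y => P y * ch r y) (b :: v) = LC j (AC n (fun y => P y * ch r y)) (b :: v) :=
    (LC_AC j _ _ (by rw [hbl]; omega)).symm
  have hA1 : ‖LC j (AC n (fun y => P y * ch r y)) (b :: v) -
      LC j (fun w => c w * AC n P w) (b :: v)‖ ≤ o * A n (Y.m v) (b :: v) := by
    have : Lf j (fun w => o * A n (Y.m v) w) (b :: v) = o * A n (Y.m v) (b :: v) := by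
      rw [Lf_smul, Lf_A j _ _ (by rw [hbl]; omega)]
    rw [← this]
    refine norm_LC_sub_le _ _ fun w hw => ?_
    rw [hbl] at hw
    have hk : n - w.length = h' := by omega
    unfold AC A
    rw [hk]
    have := LC_mul_ch r P h' w
    simp only [hnP] at this
    exact this
  have hA2 : ‖LC j c (b :: v) - AC n (fun y => ch r y) (b :: v)‖ ≤ o := by
    rw [norm_sub_rev, ← LC_AC j (fun y => ch r y) (b :: v) (by rw [hbl]; omega)]
    have h3 : ‖LC j (AC n fun y => ch r y) (b :: v) - LC j c (b :: v)‖ ≤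
        Lf j (fun _ => o) (b :: v) := by
      refine norm_LC_sub_le _ _ fun w hw => ?_
      rw [hbl] at hw
      have hk : n - w.length = h' := by omega
      unfold AC
      rw [hk]
      have := LC_mul_ch r (fun _ => 1) h' w
      rw [LC_const] at this
      simp only [one_mul, mul_one, norm_one] at this
      rw [Lf_const, mul_one] at this
      exact this
    rw [Lf_const] at h3
    exact h3
  have hA3 : LC j (fun w => c w * AC n P w) (b :: v) = LC j c (b :: v) * AC n P v +
      LC j (fun w => c w * (AC n P w - AC n P v)) (b :: v) := by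
    have : (fun w => c w * AC n P w) = fun w => AC n P v * c w + c w * (AC n P w - AC n P v) := by
      funext w; ring
    rw [this, LC_add, LC_smul]
    ring
  have hA4 : ‖LC j (fun w => c w * (AC n P w - AC n P v)) (b :: v)‖ ≤
      Lf j (fun w => ‖AC n P w - AC n P v‖) (b :: v) := by
    refine (norm_LC_le _ _ _).trans (le_of_eq ?_)
    congr 1
    funext w
    rw [norm_mul, hcn, one_mul]
  have hPv : ‖AC n P v‖ ≤ Y.G v := by
    refine (norm_AC_le _ _ _).trans (le_of_eq ?_)
    simp only [hnP]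
    rfl
  have e5 : AC n (fun y => P y * ch r y) (b :: v) -
      AC n (fun y => ch r y) (b :: v) * AC n P v =
      (LC j (AC n (fun y => P y * ch r y)) (b :: v) - LC j (fun w => c w * AC n P w) (b :: v)) +
      LC j (fun w => c w * (AC n P w - AC n P v)) (b :: v) +
      (LC j c (b :: v) - AC n (fun y => ch r y) (b :: v)) * AC n P v := by
    rw [e1, hA3]; ring
  rw [e5]
  refine norm_add₃_le.trans ?_
  rw [norm_mul]
  have h6 : ‖LC j c (b :: v) - AC n (fun y => ch r y) (b :: v)‖ * ‖AC n P v‖ ≤ o * Y.G v :=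
    mul_le_mul hA2 hPv (norm_nonneg _) ho0
  linarith

/-- Claim A -/
theorem dB_le (s0 r : ZMod M) (v : Node) (j : ℕ) (hj : j + (v.length + 1) ≤ n) :
    ‖Y.dB (s0 + r) v‖ ≤
      ‖AC n (fun y => ch r y) (true :: v) - AC n (fun y => ch r y) (false :: v)‖ / 2 * Y.G v +
      Lf (j + 1) (fun w => ‖AC n (fun y => (Y.m v y : ℂ) * ch s0 y) w -
        AC n (fun y => (Y.m v y : ℂ) * ch s0 y) v‖) v +
      2 * (((2 : ℝ) ^ (n - v.length - 1 - j) - 1) * aa r * Y.G v) := by
  have h1 := child_est Y s0 r v true j hj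
  have h2 := child_est Y s0 r v false j hj
  set P : Node → ℂ := fun y => (Y.m v y : ℂ) * ch s0 y with hP
  set o : ℝ := ((2 : ℝ) ^ (n - v.length - 1 - j) - 1) * aa r with ho
  have hPv : ‖AC n P v‖ ≤ Y.G v := by
    refine (norm_AC_le _ _ _).trans (le_of_eq ?_)
    simp only [hP]
    unfold YSide.G
    congr 1
    funext y
    rw [norm_mul, norm_ch, mul_one, Complex.norm_real, Real.norm_of_nonneg (Y.nonneg v y)]
  unfold YSide.dB YSide.B'
  have e5 : (AC n (fun y => (Y.m v y : ℂ) * ch (s0 + r) y) (true :: v) -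
      AC n (fun y => (Y.m v y : ℂ) * ch (s0 + r) y) (false :: v)) / 2 =
      ((AC n (fun y => ch r y) (true :: v) - AC n (fun y => ch r y) (false :: v)) * AC n P v +
      (AC n (fun y => (Y.m v y : ℂ) * ch (s0 + r) y) (true :: v) -
        AC n (fun y => ch r y) (true :: v) * AC n P v) -
      (AC n (fun y => (Y.m v y : ℂ) * ch (s0 + r) y) (false :: v) -
        AC n (fun y => ch r y) (false :: v) * AC n P v)) / 2 := by ring
  rw [e5, norm_div]
  have h2n : ‖(2 : ℂ)‖ = 2 := by simp
  rw [h2n]
  have h3 := norm_sub_le ((AC n (fun y => ch r y) (true :: v) -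
      AC n (fun y => ch r y) (false :: v)) * AC n P v +
      (AC n (fun y => (Y.m v y : ℂ) * ch (s0 + r) y) (true :: v) -
        AC n (fun y => ch r y) (true :: v) * AC n P v))
      (AC n (fun y => (Y.m v y : ℂ) * ch (s0 + r) y) (false :: v) -
        AC n (fun y => ch r y) (false :: v) * AC n P v)
  have h4 := norm_add_le ((AC n (fun y => ch r y) (true :: v) -
      AC n (fun y => ch r y) (false :: v)) * AC n P v)
      (AC n (fun y => (Y.m v y : ℂ) * ch (s0 + r) y) (true :: v) -
        AC n (fun y => ch r y) (true :: v) * AC n P v)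
  rw [norm_mul] at h4
  have h5 : ‖AC n (fun y => ch r y) (true :: v) - AC n (fun y => ch r y) (false :: v)‖ *
      ‖AC n P v‖ ≤ ‖AC n (fun y => ch r y) (true :: v) -
        AC n (fun y => ch r y) (false :: v)‖ * Y.G v :=
    mul_le_mul_of_nonneg_left hPv (norm_nonneg _)
  have hG : Y.G v = (A n (Y.m v) (true :: v) + A n (Y.m v) (false :: v)) / 2 := by
    unfold YSide.G; rw [A_step _ (by omega)]
  have hGm : o * A n (Y.m v) (true :: v) + o * A n (Y.m v) (false :: v) = 2 * (o * Y.G v) := by
    rw [hG]; ring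
  simp only [Lf]
  linarith

variable (N : Noise M) {k : ℕ} (Q : Grow M k)

/-- variation of the lists -/
noncomputable def tau0 (v : Node) : ℝ := if v.length < n then tau N n (Q.L v) (Y.m v) v else 0

/-- removed mass, cut at the leaves -/
noncomputable def Rt (v : Node) : ℝ := if v.length ≤ n then Y.R v else 0

/-- the common bound -/
noncomputable def om (W : ℕ) (v : Node) : ℝ :=
  2 * ∑ j ∈ range W, (Lf j (tau0 Y N Q) v + ∑ i ∈ range j, Lf (i + 1) (Rt Y) v)

theorem tau0_nonneg (v : Node) : 0 ≤ tau0 Y N Q v := by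
  unfold tau0
  split_ifs
  · exact tau_nonneg _ _ _ _ _
  · exact le_rfl

theorem Rt_nonneg (v : Node) : 0 ≤ Rt Y v := by
  unfold Rt
  split_ifs with h
  · exact Y.R_nonneg h
  · exact le_rfl

theorem om_nonneg (W : ℕ) (v : Node) : 0 ≤ om Y N Q W v := by
  unfold om
  refine mul_nonneg (by norm_num) (Finset.sum_nonneg fun j _ => add_nonneg ?_ ?_)
  · exact Lf_nonneg _ _ (tau0_nonneg Y N Q)
  · exact Finset.sum_nonneg fun i _ => Lf_nonneg _ _ (Rt_nonneg Y)

/-- removed mass between two generations -/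
theorem G_sub_Lf (j : ℕ) (v : Node) (h : j + v.length ≤ n) :
    Y.G v - Lf j Y.G v = ∑ i ∈ range j, Lf (i + 1) (Rt Y) v := by
  induction j with
  | zero => simp [Lf]
  | succ j ih =>
    rw [Finset.sum_range_succ, ← ih (by omega)]
    have h1 : Lf (j + 1) (Rt Y) v = Lf (j + 1) (fun w => Y.G' w + (-1) * Y.G w) v := by
      refine Lf_congr' _ _ fun w hw => ?_
      unfold Rt YSide.R
      rw [if_pos (by omega)]; ring
    rw [Lf_add, Lf_smul] at h1
    have h2 : Lf (j + 1) Y.G' v = Lf j Y.G v := by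
      rw [Lf_succ']
      exact Lf_congr' _ _ fun w hw => Y.G'_avg (by omega)
    rw [h1, h2]
    ring

theorem Lf_rem (j : ℕ) (v : Node) (h : j + v.length ≤ n) :
    Lf j (fun w => A n (fun y => Y.m v y - Y.m w y) w) v =
      ∑ i ∈ range j, Lf (i + 1) (Rt Y) v := by
  rw [← G_sub_Lf Y j v h]
  have h1 : (fun w => A n (fun y => Y.m v y - Y.m w y) w) =
      fun w => A n (Y.m v) w + (-1) * Y.G w := by
    funext w
    have h2 := A_add n (fun y => Y.m v y - Y.m w y) (Y.m w) w
    simp only [sub_add_cancel] at h2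
    have h3 : A n (fun y => Y.m v y) w = A n (Y.m v) w := rfl
    rw [h3] at h2
    unfold YSide.G
    linarith
  rw [h1, Lf_add, Lf_smul, Lf_A j _ _ h]
  unfold YSide.G
  ring

/-- Claim C -/
theorem var_le {v w : Node} (hvw : v <:+ w) (hw : w.length < n) {s0 : ZMod M}
    (hs : InSpan (Q.L v) s0) :
    ‖AC n (fun y => (Y.m v y : ℂ) * ch s0 y) (true :: w) -
      AC n (fun y => (Y.m v y : ℂ) * ch s0 y) (false :: w)‖ / 2 ≤
      2 * (tau0 Y N Q w + A n (fun y => Y.m v y - Y.m w y) w) := by
  have h1 := rep N n (Q.L v) hs (Y.nonneg v) w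
  have h2 := N.rho_ge_half (Q.L v).length
  obtain ⟨l', hl'⟩ := Q.suffix hvw
  have h3 := tau_le_append N n l' (Q.L v) (Y.m v) w
  rw [hl'] at h3
  have h4 := tau_add_le N n (Q.L w) (Y.m w) (fun y => Y.m v y - Y.m w y) w
  have e : (fun y => Y.m w y + (Y.m v y - Y.m w y)) = Y.m v := by funext y; ring
  rw [e] at h4
  have h5 := tau_le_A N n (Q.L w) (r := fun y => Y.m v y - Y.m w y)
    (fun y => sub_nonneg.2 (Y.m_anti hvw hw.le y)) hw
  have h6 : tau0 Y N Q w = tau N n (Q.L w) (Y.m w) w := by
    unfold tau0; rw [if_pos hw]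
  rw [h6]
  set x := ‖AC n (fun y => (Y.m v y : ℂ) * ch s0 y) (true :: w) -
      AC n (fun y => (Y.m v y : ℂ) * ch s0 y) (false :: w)‖ / 2 with hx
  have hx0 : 0 ≤ x := by rw [hx]; positivity
  have h7 : 1 / 2 * x ≤ N.rho (Q.L v).length * x := mul_le_mul_of_nonneg_right h2 hx0
  linarith

theorem phi_tele {t d : ℝ} (ht : 0 ≤ t) (h1 : d ≤ t / 2) (h2 : t / 2 * d ≤ 4) :
    d ≤ 48 * (1 / (1 + t / 2) - 1 / (1 + t)) := by
  have e : 1 / (1 + t / 2) - 1 / (1 + t) = (t / 2) / ((1 + t / 2) * (1 + t)) := by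
    field_simp; ring
  rw [e]
  rw [mul_div_assoc', le_div_iff₀ (by positivity)]
  by_cases ht1 : t ≤ 1
  · have : (1 + t / 2) * (1 + t) ≤ 3 := by nlinarith
    have h3 : 0 < (1 + t / 2) * (1 + t) := by positivity
    by_cases hd : 0 ≤ d
    · nlinarith
    · push Not at hd
      have : d * ((1 + t / 2) * (1 + t)) ≤ 0 := (mul_neg_of_neg_of_pos hd h3).le
      linarith
  · push Not at ht1
    by_cases hd : 0 ≤ d
    · have h3 : (1 + t / 2) * (1 + t) ≤ 3 * t ^ 2 := by nlinarith
      have h4 : d * ((1 + t / 2) * (1 + t)) ≤ d * (3 * t ^ 2) :=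
        mul_le_mul_of_nonneg_left h3 hd
      have h5 : d * (3 * t ^ 2) = (t / 2 * d) * (6 * t) := by ring
      have h6 : (t / 2 * d) * (6 * t) ≤ 4 * (6 * t) :=
        mul_le_mul_of_nonneg_right h2 (by positivity)
      linarith
    · push Not at hd
      have h3 : 0 < (1 + t / 2) * (1 + t) := by positivity
      have : d * ((1 + t / 2) * (1 + t)) ≤ 0 := (mul_neg_of_neg_of_pos hd h3).le
      linarith

/-- **the pointwise estimate** -/
theorem point_est {W : ℕ} (hW : 1 ≤ W) {v : Node} (hv : v.length < n) (hG : Y.G v ≤ 2)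
    {s0 : ZMod M} (hs : InSpan (Q.L v) s0) (r : ZMod M) :
    ‖Y.dB (s0 + r) v‖ ≤
      48 * (1 / (1 + (2 : ℝ) ^ (n - v.length) * aa r / 2) -
        1 / (1 + (2 : ℝ) ^ (n - v.length) * aa r)) +
      4 * ((2 : ℝ) ^ (n - v.length) * aa r / 2 ^ W) + om Y N Q W v := by
  have ha := aa_nonneg r
  set t : ℝ := (2 : ℝ) ^ (n - v.length) * aa r with ht
  have ht0 : 0 ≤ t := by positivity
  obtain ⟨J, hJ⟩ : ∃ J, min W (n - v.length) = J + 1 :=
    ⟨min W (n - v.length) - 1, by omega⟩
  have hJn : J + (v.length + 1) ≤ n := by omega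
  have h1 := dB_le Y s0 r v J hJn
  set P : Node → ℂ := fun y => (Y.m v y : ℂ) * ch s0 y with hP
  have h2 := dev_le (n := n) P (AC n P v) (J + 1) v (by omega)
  rw [sub_self, norm_zero, zero_add] at h2
  -- sum over generations
  have h3 : ∑ j ∈ range (J + 1), Lf j (fun w => ‖AC n P (true :: w) - AC n P (false :: w)‖ / 2) v
      ≤ om Y N Q W v := by
    unfold om
    rw [Finset.mul_sum]
    have hsub : range (J + 1) ⊆ range W := by
      intro j hj
      rw [Finset.mem_range] at hj ⊢
      omega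
    refine le_trans ?_ (Finset.sum_le_sum_of_subset_of_nonneg hsub fun j _ _ => ?_)
    · refine Finset.sum_le_sum fun j hj => ?_
      rw [Finset.mem_range] at hj
      have hjn : j + v.length ≤ n := by omega
      rw [← Lf_rem Y j v hjn, ← Lf_add, ← Lf_smul]
      refine Lf_mono_desc _ _ fun w hvw hl => ?_
      have hwn : w.length < n := by omega
      exact var_le Y N Q hvw hwn hs
    · refine mul_nonneg (by norm_num) (add_nonneg ?_ ?_)
      · exact Lf_nonneg _ _ (tau0_nonneg Y N Q)
      · exact Finset.sum_nonneg fun i _ => Lf_nonneg _ _ (Rt_nonneg Y)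
  -- character difference
  have hΔ := LC_ch_diff r (n - v.length - 1) v
  have eL : ∀ b : Bool, AC n (fun y => ch r y) (b :: v) =
      LC (n - v.length - 1) (fun y => ch r y) (b :: v) := by
    intro b
    unfold AC
    have : n - (b :: v).length = n - v.length - 1 := by simp only [List.length_cons]; omega
    rw [this]
  rw [← eL true, ← eL false] at hΔ
  have e2 : (2 : ℝ) ^ (n - v.length - 1) * aa r = t / 2 := by
    rw [ht]
    have : n - v.length = n - v.length - 1 + 1 := by omega
    rw [this, pow_succ]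
    simp only [Nat.add_sub_cancel]
    ring
  rw [e2] at hΔ
  have h4 := phi_tele ht0 hΔ.1 hΔ.2
  -- oscillation
  have h5 : ((2 : ℝ) ^ (n - v.length - 1 - J) - 1) * aa r ≤ t / 2 ^ W := by
    rcases le_total W (n - v.length) with hle | hle
    · have hJW : J + 1 = W := by rw [← hJ]; exact min_eq_left hle
      have e3 : (2 : ℝ) ^ (n - v.length) = 2 ^ (n - v.length - 1 - J) * 2 ^ W := by
        rw [← pow_add]; congr 1; omega
      rw [ht, e3]
      have : (2 : ℝ) ^ (n - v.length - 1 - J) * 2 ^ W * aa r / 2 ^ W =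
          2 ^ (n - v.length - 1 - J) * aa r := by field_simp
      rw [this]
      nlinarith
    · have hJW : J + 1 = n - v.length := by rw [← hJ]; exact min_eq_right hle
      have : n - v.length - 1 - J = 0 := by omega
      rw [this, pow_zero, sub_self, zero_mul]
      positivity
  have hG0 := Y.G_nonneg v
  have h6 : ‖AC n (fun y => ch r y) (true :: v) - AC n (fun y => ch r y) (false :: v)‖ / 2 * Y.G v
      ≤ ‖AC n (fun y => ch r y) (true :: v) - AC n (fun y => ch r y) (false :: v)‖ := by
    have h7 := norm_nonneg (AC n (fun y => ch r y) (true :: v) -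
      AC n (fun y => ch r y) (false :: v))
    nlinarith
  have h8 : 2 * (((2 : ℝ) ^ (n - v.length - 1 - J) - 1) * aa r * Y.G v) ≤
      4 * (t / 2 ^ W) := by
    have h9 : 0 ≤ ((2 : ℝ) ^ (n - v.length - 1 - J) - 1) * aa r :=
      mul_nonneg (sub_nonneg.2 (one_le_pow₀ (by norm_num))) ha
    nlinarith
  linarith

end Vale.Agent.P091.T.H937
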