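import Vale.Agent.P091.T.H937.Psi

/-! # P091, row T8: recursion over the list of letters -/

namespace Vale.Agent.P091.T.H937

open Vale.Agent.P091.H413 Finset

/-- position of a node among the nodes of its length (`true` is the left child) -/
def ix : Node → ℕ
  | [] => 0
  | b :: v => 2 * ix v + (if b then 0 else 1)

variable {M : ℕ} [NeZero M]

/-- the character `e(θ y / M)` at the position of the node `y` -/
noncomputable def ch (θ : ZMod M) (y : Node) : ℂ := ZMod.stdAddChar (θ * (ix y : ZMod M))

theorem norm_ch (θ : ZMod M) (y : Node) : ‖ch θ y‖ = 1 := by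
  unfold ch; exact AddChar.norm_apply _ _

theorem ch_add (θ η : ZMod M) (y : Node) : ch (θ + η) y = ch θ y * ch η y := by
  unfold ch; rw [add_mul, AddChar.map_add_eq_mul]

theorem ch_zero (y : Node) : ch (0 : ZMod M) y = 1 := by
  unfold ch; simp

/-- noise kernels: `ker i` is a probability density on `ZMod M` with `ker i ≤ 20 (i+1)/M` and with
Fourier coefficient of modulus between `1 - 1/(4 (i+1)^2)` and `1` -/
structure Noise (M : ℕ) [NeZero M] where
  ker : ℕ → ZMod M → ℝ
  nonneg : ∀ i c, 0 ≤ ker i c
  sum : ∀ i, ∑ c, ker i c = 1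
  le : ∀ (i : ℕ) c, ker i c ≤ 20 * ((i : ℝ) + 1) / M
  z : ℕ → ℂ
  z_eq : ∀ i, ∑ c, (ker i c : ℂ) * ZMod.stdAddChar c = z i
  z_ge : ∀ i : ℕ, 1 - 1 / (4 * ((i : ℝ) + 1) ^ 2) ≤ ‖z i‖
  z_le : ∀ i, ‖z i‖ ≤ 1

variable (N : Noise M)

/-- probability that the noisy letter `λ y + t` equals `c` -/
noncomputable def Noise.kap (i : ℕ) (la c : ZMod M) (y : Node) : ℝ :=
  N.ker i (c - la * (ix y : ZMod M))

theorem Noise.kap_nonneg (i : ℕ) (la c : ZMod M) (y : Node) : 0 ≤ N.kap i la c y := N.nonneg _ _

theorem Noise.kap_sum (i : ℕ) (la : ZMod M) (y : Node) : ∑ c, N.kap i la c y = 1 := by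
  unfold Noise.kap
  rw [← N.sum i]
  exact Fintype.sum_equiv (Equiv.subRight (la * (ix y : ZMod M))) _ _ (fun c => rfl)

theorem Noise.kap_le (i : ℕ) (la c : ZMod M) (y : Node) :
    N.kap i la c y ≤ 20 * ((i : ℝ) + 1) / M :=
  N.le _ _

theorem Noise.kap_fourier (i : ℕ) (la : ZMod M) (y : Node) :
    ∑ c, (N.kap i la c y : ℂ) * ZMod.stdAddChar c = N.z i * ch la y := by
  unfold Noise.kap ch
  rw [← N.z_eq i, Finset.sum_mul]
  refine Fintype.sum_equiv (Equiv.subRight (la * (ix y : ZMod M))) _ _ (fun c => ?_)
  rw [Equiv.subRight_apply, mul_assoc, ← AddChar.map_add_eq_mul, sub_add_cancel]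

theorem Noise.kap_fourier' (i : ℕ) (la : ZMod M) (y : Node) :
    ∑ c, (N.kap i la c y : ℂ) * (starRingEnd ℂ) (ZMod.stdAddChar c)
      = (starRingEnd ℂ) (N.z i) * ch (-la) y := by
  have h := congrArg (starRingEnd ℂ) (N.kap_fourier i la y)
  rw [map_sum, map_mul] at h
  have e1 : (starRingEnd ℂ) (ch la y) = ch (-la) y := by
    unfold ch
    rw [neg_mul, AddChar.map_neg_eq_conj]
  rw [e1] at h
  rw [← h]
  refine Finset.sum_congr rfl fun c _ => ?_
  rw [map_mul, Complex.conj_ofReal]

/-! ## the functionals -/

variable (n : ℕ)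

/-- noisy entropy of the list -/
noncomputable def Psi : List (ZMod M) → (Node → ℝ) → Node → ℝ
  | [], g, v => psi (A n g v)
  | la :: l, g, v => ∑ c, Psi l (fun y => g y * N.kap l.length la c y) v

/-- noisy variation of the list -/
noncomputable def tau : List (ZMod M) → (Node → ℝ) → Node → ℝ
  | [], g, v => |A n g (true :: v) - A n g (false :: v)| / 2
  | la :: l, g, v => ∑ c, tau l (fun y => g y * N.kap l.length la c y) v

/-- mean increment of the entropy -/
noncomputable def Gap (l : List (ZMod M)) (g : Node → ℝ) (v : Node) : ℝ :=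
  (Psi N n l g (true :: v) + Psi N n l g (false :: v)) / 2 - Psi N n l g v

theorem Gap_cons (la : ZMod M) (l : List (ZMod M)) (g : Node → ℝ) (v : Node) :
    Gap N n (la :: l) g v = ∑ c, Gap N n l (fun y => g y * N.kap l.length la c y) v := by
  unfold Gap
  simp only [Psi]
  rw [Finset.sum_sub_distrib, ← Finset.sum_div, Finset.sum_add_distrib]

theorem Gap_nil (g : Node → ℝ) {v : Node} (hv : v.length < n) :
    Gap N n [] g v = J (A n g (true :: v)) (A n g (false :: v)) := by
  unfold Gap J
  simp only [Psi]
  rw [A_step g hv]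

theorem mulkap_nonneg {g : Node → ℝ} (hg : ∀ y, 0 ≤ g y) (i : ℕ) (la c : ZMod M) (y : Node) :
    0 ≤ g y * N.kap i la c y := mul_nonneg (hg y) (N.kap_nonneg _ _ _ _)

theorem Gap_nonneg (l : List (ZMod M)) {g : Node → ℝ} (hg : ∀ y, 0 ≤ g y) {v : Node}
    (hv : v.length < n) : 0 ≤ Gap N n l g v := by
  induction l generalizing g with
  | nil =>
    rw [Gap_nil N n g hv]
    exact J_nonneg (A_nonneg _ hg) (A_nonneg _ hg)
  | cons la l ih =>
    rw [Gap_cons]
    exact Finset.sum_nonneg fun c _ => ih (mulkap_nonneg N hg _ _ _)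

theorem tau_nonneg (l : List (ZMod M)) (g : Node → ℝ) (v : Node) : 0 ≤ tau N n l g v := by
  induction l generalizing g with
  | nil => simp only [tau]; positivity
  | cons la l ih => simp only [tau]; exact Finset.sum_nonneg fun c _ => ih _

/-- `Gap` is subadditive in the density -/
theorem Gap_sum_le {ι : Type*} (s : Finset ι) (l : List (ZMod M)) {f : ι → Node → ℝ}
    (hf : ∀ i y, 0 ≤ f i y) {v : Node} (hv : v.length < n) :
    Gap N n l (fun y => ∑ i ∈ s, f i y) v ≤ ∑ i ∈ s, Gap N n l (f i) v := by
  induction l generalizing f with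
  | nil =>
    rw [Gap_nil N n _ hv, A_sum, A_sum]
    refine (J_sum s (fun i _ => A_nonneg _ (hf i)) (fun i _ => A_nonneg _ (hf i))).trans
      (le_of_eq ?_)
    exact Finset.sum_congr rfl fun i _ => (Gap_nil N n _ hv).symm
  | cons la l ih =>
    rw [Gap_cons]
    have h1 : ∀ c, Gap N n l (fun y => (∑ i ∈ s, f i y) * N.kap l.length la c y) v
        ≤ ∑ i ∈ s, Gap N n l (fun y => f i y * N.kap l.length la c y) v := by
      intro c
      have := ih (f := fun i y => f i y * N.kap l.length la c y)
        (fun i y => mul_nonneg (hf i y) (N.kap_nonneg _ _ _ _))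
      simp only [← Finset.sum_mul] at this
      exact this
    refine (Finset.sum_le_sum fun c _ => h1 c).trans (le_of_eq ?_)
    rw [Finset.sum_comm]
    exact Finset.sum_congr rfl fun i _ => (Gap_cons N n la l (f i) v).symm

/-- `tau` is subadditive in the density -/
theorem tau_sum_le {ι : Type*} (s : Finset ι) (l : List (ZMod M)) (f : ι → Node → ℝ)
    (v : Node) :
    tau N n l (fun y => ∑ i ∈ s, f i y) v ≤ ∑ i ∈ s, tau N n l (f i) v := by
  induction l generalizing f with
  | nil =>
    simp only [tau]
    rw [A_sum, A_sum, ← Finset.sum_sub_distrib, ← Finset.sum_div]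
    gcongr
    exact Finset.abs_sum_le_sum_abs _ _
  | cons la l ih =>
    simp only [tau]
    have h1 : ∀ c, tau N n l (fun y => (∑ i ∈ s, f i y) * N.kap l.length la c y) v
        ≤ ∑ i ∈ s, tau N n l (fun y => f i y * N.kap l.length la c y) v := by
      intro c
      have := ih (f := fun i y => f i y * N.kap l.length la c y)
      simp only [← Finset.sum_mul] at this
      exact this
    refine (Finset.sum_le_sum fun c _ => h1 c).trans (le_of_eq ?_)
    rw [Finset.sum_comm]

/-- more letters: larger gap -/
theorem Gap_le_cons (la : ZMod M) (l : List (ZMod M)) {g : Node → ℝ} (hg : ∀ y, 0 ≤ g y)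
    {v : Node} (hv : v.length < n) : Gap N n l g v ≤ Gap N n (la :: l) g v := by
  rw [Gap_cons]
  have := Gap_sum_le N n Finset.univ l (f := fun c y => g y * N.kap l.length la c y)
    (fun c y => mulkap_nonneg N hg _ _ _ _) hv
  simp only [← Finset.mul_sum, N.kap_sum, mul_one] at this
  exact this

theorem tau_le_cons (la : ZMod M) (l : List (ZMod M)) (g : Node → ℝ) (v : Node) :
    tau N n l g v ≤ tau N n (la :: l) g v := by
  simp only [tau]
  have := tau_sum_le N n Finset.univ l (fun c y => g y * N.kap l.length la c y) v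
  simp only [← Finset.mul_sum, N.kap_sum, mul_one] at this
  exact this

theorem tau_le_append (l' l : List (ZMod M)) (g : Node → ℝ) (v : Node) :
    tau N n l g v ≤ tau N n (l' ++ l) g v := by
  induction l' with
  | nil => simp
  | cons la l' ih => exact ih.trans (tau_le_cons N n la (l' ++ l) g v)

theorem sum_A_kap (i : ℕ) (la : ZMod M) (g : Node → ℝ) (v : Node) :
    ∑ c, A n (fun y => g y * N.kap i la c y) v = A n g v := by
  rw [← A_sum]
  simp only [← Finset.mul_sum, N.kap_sum, mul_one]

/-- Pinsker for lists -/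
theorem tau_sq_le (l : List (ZMod M)) {g : Node → ℝ} (hg : ∀ y, 0 ≤ g y) {v : Node}
    (hv : v.length < n) : tau N n l g v ^ 2 ≤ 12 * A n g v * Gap N n l g v := by
  induction l generalizing g with
  | nil =>
    rw [Gap_nil N n g hv, A_step g hv]
    simp only [tau]
    exact J_pinsker (A_nonneg _ hg) (A_nonneg _ hg)
  | cons la l ih =>
    rw [Gap_cons]
    simp only [tau]
    have hG0 : ∀ c, 0 ≤ 12 * A n (fun y => g y * N.kap l.length la c y) v := fun c =>
      mul_nonneg (by norm_num) (A_nonneg _ (mulkap_nonneg N hg _ _ _))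
    have h0 : ∀ c, 0 ≤ Gap N n l (fun y => g y * N.kap l.length la c y) v := fun c =>
      Gap_nonneg N n l (mulkap_nonneg N hg _ _ _) hv
    have h1 : (∑ c, tau N n l (fun y => g y * N.kap l.length la c y) v) ^ 2 ≤
        (∑ c, 12 * A n (fun y => g y * N.kap l.length la c y) v) *
          ∑ c, Gap N n l (fun y => g y * N.kap l.length la c y) v := by
      have h2 : ∀ c, tau N n l (fun y => g y * N.kap l.length la c y) v ≤
          Real.sqrt (12 * A n (fun y => g y * N.kap l.length la c y) v) *
          Real.sqrt (Gap N n l (fun y => g y * N.kap l.length la c y) v) := by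
        intro c
        rw [← Real.sqrt_mul (hG0 c)]
        exact Real.le_sqrt_of_sq_le (ih (mulkap_nonneg N hg _ _ _))
      calc (∑ c, tau N n l (fun y => g y * N.kap l.length la c y) v) ^ 2
          ≤ (∑ c, Real.sqrt (12 * A n (fun y => g y * N.kap l.length la c y) v) *
          Real.sqrt (Gap N n l (fun y => g y * N.kap l.length la c y) v)) ^ 2 := by
            refine pow_le_pow_left₀ (Finset.sum_nonneg fun c _ => tau_nonneg N n l _ v)
              (Finset.sum_le_sum fun c _ => h2 c) 2
        _ ≤ (∑ c, Real.sqrt (12 * A n (fun y => g y * N.kap l.length la c y) v) ^ 2) *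
          ∑ c, Real.sqrt (Gap N n l (fun y => g y * N.kap l.length la c y) v) ^ 2 :=
            Finset.sum_mul_sq_le_sq_mul_sq _ _ _
        _ = _ := by
            congr 1
            · exact Finset.sum_congr rfl fun c _ => Real.sq_sqrt (hG0 c)
            · exact Finset.sum_congr rfl fun c _ => Real.sq_sqrt (h0 c)
    refine h1.trans (le_of_eq ?_)
    rw [← Finset.mul_sum, sum_A_kap]

/-- splitting the density lowers `Psi` by at most the number of pieces -/
theorem Psi_sum_ge {ι : Type*} [Fintype ι] [Nonempty ι] (l : List (ZMod M)) {f : ι → Node → ℝ}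
    (hf : ∀ i y, 0 ≤ f i y) (v : Node) :
    Psi N n l (fun y => ∑ i, f i y) v ≤
      ∑ i, Psi N n l (f i) v + A n (fun y => ∑ i, f i y) v * Real.log (Fintype.card ι) := by
  induction l generalizing f with
  | nil =>
    simp only [Psi]
    rw [A_sum]
    exact psi_sum_ge fun i => A_nonneg _ (hf i)
  | cons la l ih =>
    simp only [Psi]
    have h1 : ∀ c, Psi N n l (fun y => (∑ i, f i y) * N.kap l.length la c y) v
        ≤ ∑ i, Psi N n l (fun y => f i y * N.kap l.length la c y) v +
          A n (fun y => (∑ i, f i y) * N.kap l.length la c y) v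
            * Real.log (Fintype.card ι) := by
      intro c
      have := ih (f := fun i y => f i y * N.kap l.length la c y)
        (fun i y => mul_nonneg (hf i y) (N.kap_nonneg _ _ _ _))
      simp only [← Finset.sum_mul] at this
      exact this
    refine (Finset.sum_le_sum fun c _ => h1 c).trans (le_of_eq ?_)
    rw [Finset.sum_add_distrib, ← Finset.sum_mul, sum_A_kap, Finset.sum_comm]

theorem Psi_cons_ge (la : ZMod M) (l : List (ZMod M)) {g : Node → ℝ} (hg : ∀ y, 0 ≤ g y)
    (v : Node) :
    Psi N n l g v ≤ Psi N n (la :: l) g v + A n g v * Real.log M := by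
  have := Psi_sum_ge N n l (f := fun (c : ZMod M) y => g y * N.kap l.length la c y)
    (fun c y => mulkap_nonneg N hg _ _ _ _) v
  simp only [← Finset.mul_sum, N.kap_sum, mul_one, ZMod.card] at this
  exact this

theorem Psi_append_ge (l' l : List (ZMod M)) {g : Node → ℝ} (hg : ∀ y, 0 ≤ g y) (v : Node) :
    Psi N n l g v ≤ Psi N n (l' ++ l) g v + l'.length * (A n g v * Real.log M) := by
  induction l' with
  | nil => simp
  | cons la l' ih =>
    have h := Psi_cons_ge N n la (l' ++ l) hg v
    simp only [List.cons_append, List.length_cons]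
    push_cast
    linarith

/-- value at a leaf -/
theorem Psi_leaf (l : List (ZMod M)) {g : Node → ℝ} (hg : ∀ y, 0 ≤ g y) {v : Node}
    (hv : n ≤ v.length) :
    Psi N n l g v ≤ psi (g v) +
      g v * ∑ i ∈ Finset.range l.length, Real.log (20 * ((i : ℝ) + 1) / M) := by
  have hM : (0 : ℝ) < M := by exact_mod_cast Nat.pos_of_ne_zero (NeZero.ne M)
  induction l generalizing g with
  | nil => simp only [Psi]; rw [A_leaf g hv]; simp
  | cons la l ih =>
    simp only [Psi]
    have h1 : ∀ c, Psi N n l (fun y => g y * N.kap l.length la c y) v ≤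
        psi (g v * N.kap l.length la c v) + (g v * N.kap l.length la c v) *
          ∑ i ∈ Finset.range l.length, Real.log (20 * ((i : ℝ) + 1) / M) :=
      fun c => ih (mulkap_nonneg N hg _ _ _)
    refine (Finset.sum_le_sum fun c _ => h1 c).trans ?_
    rw [Finset.sum_add_distrib, ← Finset.sum_mul, ← Finset.mul_sum, N.kap_sum, mul_one]
    simp only [List.length_cons]
    rw [Finset.sum_range_succ, mul_add]
    have h2 : ∀ c, psi (g v * N.kap l.length la c v) ≤
        psi (g v) * N.kap l.length la c v +
          g v * Real.log (20 * ((l.length : ℝ) + 1) / M) * N.kap l.length la c v := by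
      intro c
      unfold psi
      rcases eq_or_lt_of_le (hg v) with h | h
      · rw [← h]; simp
      rcases eq_or_lt_of_le (N.kap_nonneg l.length la c v) with h' | h'
      · rw [← h']; simp
      rw [Real.log_mul h.ne' h'.ne']
      have h3 : Real.log (N.kap l.length la c v) ≤ Real.log (20 * ((l.length : ℝ) + 1) / M) :=
        Real.log_le_log h' (N.kap_le _ _ _ _)
      have h4 := mul_le_mul_of_nonneg_left h3 (mul_pos h h').le
      nlinarith
    have h3 := Finset.sum_le_sum (fun c (_ : c ∈ Finset.univ) => h2 c)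
    rw [Finset.sum_add_distrib, ← Finset.mul_sum, ← Finset.mul_sum, N.kap_sum, mul_one,
      mul_one] at h3
    linarith

/-! ## combinations of letters -/

/-- `s` is a combination of the letters with coefficients `-1, 0, 1` -/
def InSpan : List (ZMod M) → ZMod M → Prop
  | [], s => s = 0
  | la :: l, s => InSpan l s ∨ InSpan l (s - la) ∨ InSpan l (s + la)

omit [NeZero M] in
theorem InSpan_append {l : List (ZMod M)} {s : ZMod M} (h : InSpan l s) (l' : List (ZMod M)) :
    InSpan (l' ++ l) s := by
  induction l' with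
  | nil => exact h
  | cons la l' ih => exact Or.inl ih

omit [NeZero M] in
theorem InSpan_sublist {l l' : List (ZMod M)} (hl : l.Sublist l') {s : ZMod M}
    (h : InSpan l s) : InSpan l' s := by
  induction hl generalizing s with
  | slnil => exact h
  | cons a _ ih => exact Or.inl (ih h)
  | cons_cons a _ ih =>
    rcases h with h | h | h
    · exact Or.inl (ih h)
    · exact Or.inr (Or.inl (ih h))
    · exact Or.inr (Or.inr (ih h))

/-- the total Fourier factor -/
noncomputable def Noise.rho : ℕ → ℝ
  | 0 => 1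
  | i + 1 => Noise.rho i * ‖N.z i‖

theorem Noise.rho_nonneg (i : ℕ) : 0 ≤ N.rho i := by
  induction i with
  | zero => simp [Noise.rho]
  | succ i ih => simp only [Noise.rho]; exact mul_nonneg ih (norm_nonneg _)

theorem Noise.rho_ge (i : ℕ) : 1 / 2 + 1 / (2 * ((i : ℝ) + 1)) ≤ N.rho i := by
  induction i with
  | zero => simp [Noise.rho]; norm_num
  | succ i ih =>
    simp only [Noise.rho]
    have hz := N.z_ge i
    have hi : (0 : ℝ) < (i : ℝ) + 1 := by positivity
    have h1 : 0 ≤ 1 - 1 / (4 * ((i : ℝ) + 1) ^ 2) := by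
      rw [sub_nonneg, div_le_one (by positivity)]
      nlinarith [sq_nonneg ((i : ℝ)), Nat.cast_nonneg (α := ℝ) i]
    have h2 : (1 / 2 + 1 / (2 * ((i : ℝ) + 1))) * (1 - 1 / (4 * ((i : ℝ) + 1) ^ 2)) ≤
        N.rho i * ‖N.z i‖ := mul_le_mul ih hz h1 (N.rho_nonneg i)
    refine le_trans ?_ h2
    push_cast
    rw [← sub_nonneg]
    have e : (1 / 2 + 1 / (2 * ((i : ℝ) + 1))) * (1 - 1 / (4 * ((i : ℝ) + 1) ^ 2)) -
        (1 / 2 + 1 / (2 * ((i : ℝ) + 1 + 1))) =
        (i : ℝ) * (3 * i + 4) / (8 * ((i : ℝ) + 1) ^ 3 * (i + 2)) := by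
      have : (i : ℝ) + 1 + 1 = i + 2 := by ring
      rw [this]
      field_simp
      ring
    rw [e]
    positivity

theorem Noise.rho_ge_half (i : ℕ) : 1 / 2 ≤ N.rho i := by
  have := N.rho_ge i
  have h2 : (0 : ℝ) ≤ 1 / (2 * ((i : ℝ) + 1)) := by positivity
  linarith

/-- **Representation.**  The variation of every combination of letters is controlled by `tau`. -/
theorem rep (l : List (ZMod M)) {s : ZMod M} (hs : InSpan l s) {g : Node → ℝ}
    (hg : ∀ y, 0 ≤ g y) (v : Node) :
    N.rho l.length * (‖AC n (fun y => (g y : ℂ) * ch s y) (true :: v) -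
      AC n (fun y => (g y : ℂ) * ch s y) (false :: v)‖ / 2) ≤ tau N n l g v := by
  induction l generalizing s g with
  | nil =>
    simp only [InSpan] at hs
    subst hs
    simp only [tau, List.length_nil, Noise.rho, one_mul, ch_zero, mul_one]
    rw [AC_ofReal, AC_ofReal, ← Complex.ofReal_sub, Complex.norm_real, Real.norm_eq_abs]
  | cons la l ih =>
    simp only [tau, List.length_cons, Noise.rho]
    -- general reduction
    have key : ∀ (s' : ZMod M) (w : ZMod M → ℂ) (z : ℂ), (∀ c, ‖w c‖ ≤ 1) → ‖N.z l.length‖ ≤ ‖z‖ →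
        InSpan l s' → (∀ y, z * ((g y : ℂ) * ch s y) =
          ∑ c, w c * ((g y * N.kap l.length la c y : ℝ) * ch s' y)) →
        N.rho l.length * ‖N.z l.length‖ * (‖AC n (fun y => (g y : ℂ) * ch s y) (true :: v) -
          AC n (fun y => (g y : ℂ) * ch s y) (false :: v)‖ / 2) ≤
          ∑ c, tau N n l (fun y => g y * N.kap l.length la c y) v := by
      intro s' w z hw hz hs' hrep
      have e : ∀ u : Node, z * AC n (fun y => (g y : ℂ) * ch s y) u =
          ∑ c, w c * AC n (fun y => ((g y * N.kap l.length la c y : ℝ) : ℂ) * ch s' y) u := by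
        intro u
        rw [← AC_smul]
        simp only [hrep]
        rw [AC_sum]
        exact Finset.sum_congr rfl fun c _ => AC_smul _ _ _ _
      have e2 : z * (AC n (fun y => (g y : ℂ) * ch s y) (true :: v) -
          AC n (fun y => (g y : ℂ) * ch s y) (false :: v)) =
          ∑ c, w c * (AC n (fun y => ((g y * N.kap l.length la c y : ℝ) : ℂ) * ch s' y) (true :: v)
            - AC n (fun y => ((g y * N.kap l.length la c y : ℝ) : ℂ) * ch s' y) (false :: v)) := by
        rw [mul_sub, e, e, ← Finset.sum_sub_distrib]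
        exact Finset.sum_congr rfl fun c _ => by ring
      have h3 : ‖z‖ * ‖AC n (fun y => (g y : ℂ) * ch s y) (true :: v) -
          AC n (fun y => (g y : ℂ) * ch s y) (false :: v)‖ ≤
          ∑ c, ‖AC n (fun y => ((g y * N.kap l.length la c y : ℝ) : ℂ) * ch s' y) (true :: v)
            - AC n (fun y => ((g y * N.kap l.length la c y : ℝ) : ℂ) * ch s' y) (false :: v)‖ := by
        rw [← norm_mul, e2]
        refine (norm_sum_le _ _).trans (Finset.sum_le_sum fun c _ => ?_)
        rw [norm_mul]
        exact mul_le_of_le_one_left (norm_nonneg _) (hw c)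
      have h4 : ‖N.z l.length‖ * ‖AC n (fun y => (g y : ℂ) * ch s y) (true :: v) -
          AC n (fun y => (g y : ℂ) * ch s y) (false :: v)‖ ≤
          ∑ c, ‖AC n (fun y => ((g y * N.kap l.length la c y : ℝ) : ℂ) * ch s' y) (true :: v)
            - AC n (fun y => ((g y * N.kap l.length la c y : ℝ) : ℂ) * ch s' y) (false :: v)‖ :=
        (mul_le_mul_of_nonneg_right hz (norm_nonneg _)).trans h3
      calc N.rho l.length * ‖N.z l.length‖ * (‖AC n (fun y => (g y : ℂ) * ch s y) (true :: v) -
          AC n (fun y => (g y : ℂ) * ch s y) (false :: v)‖ / 2)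
          = N.rho l.length * (‖N.z l.length‖ * ‖AC n (fun y => (g y : ℂ) * ch s y) (true :: v) -
          AC n (fun y => (g y : ℂ) * ch s y) (false :: v)‖) / 2 := by ring
        _ ≤ N.rho l.length * (∑ c, ‖AC n (fun y => ((g y * N.kap l.length la c y : ℝ) : ℂ)
              * ch s' y) (true :: v) - AC n (fun y => ((g y * N.kap l.length la c y : ℝ) : ℂ)
              * ch s' y) (false :: v)‖) / 2 := by
            have := mul_le_mul_of_nonneg_left h4 (N.rho_nonneg l.length)
            linarith
        _ = ∑ c, N.rho l.length * (‖AC n (fun y => ((g y * N.kap l.length la c y : ℝ) : ℂ)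
              * ch s' y) (true :: v) - AC n (fun y => ((g y * N.kap l.length la c y : ℝ) : ℂ)
              * ch s' y) (false :: v)‖ / 2) := by
            rw [← Finset.mul_sum, ← Finset.sum_div, mul_div_assoc]
        _ ≤ _ := Finset.sum_le_sum fun c _ => ih hs' (mulkap_nonneg N hg _ _ _)
    rcases hs with hs | hs | hs
    · refine key s (fun _ => 1) 1 (fun _ => by simp) (by simpa using N.z_le _) hs (fun y => ?_)
      simp only [one_mul]
      rw [← Finset.sum_mul, ← Complex.ofReal_sum, ← Finset.mul_sum, N.kap_sum, mul_one]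
    · refine key (s - la) (fun c => ZMod.stdAddChar c) (N.z l.length)
        (fun c => (AddChar.norm_apply _ _).le) le_rfl hs (fun y => ?_)
      have e1 : ch s y = ch la y * ch (s - la) y := by rw [← ch_add, add_sub_cancel]
      rw [e1]
      calc N.z l.length * ((g y : ℂ) * (ch la y * ch (s - la) y))
          = (N.z l.length * ch la y) * ((g y : ℂ) * ch (s - la) y) := by ring
        _ = _ := by
          rw [← N.kap_fourier, Finset.sum_mul]
          exact Finset.sum_congr rfl fun c _ => by push_cast; ring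
    · refine key (s + la) (fun c => (starRingEnd ℂ) (ZMod.stdAddChar c))
        ((starRingEnd ℂ) (N.z l.length))
        (fun c => by rw [RCLike.norm_conj]; exact (AddChar.norm_apply _ _).le)
        (by rw [RCLike.norm_conj]) hs (fun y => ?_)
      have e1 : ch s y = ch (-la) y * ch (s + la) y := by
        rw [← ch_add]; congr 1; ring
      rw [e1]
      calc (starRingEnd ℂ) (N.z l.length) * ((g y : ℂ) * (ch (-la) y * ch (s + la) y))
          = ((starRingEnd ℂ) (N.z l.length) * ch (-la) y) * ((g y : ℂ) * ch (s + la) y) := by ring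
        _ = _ := by
          rw [← N.kap_fourier', Finset.sum_mul]
          exact Finset.sum_congr rfl fun c _ => by push_cast; ring

end Vale.Agent.P091.T.H937
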