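import Vale.Agent.P091.T.H937.Avg

/-! # P091, row T8: the noisy entropy of a list of letters -/

namespace Vale.Agent.P091.T.H937

open Vale.Agent.P091.H413 Finset

/-! ## one-variable inequalities -/

/-- `t log t` -/
noncomputable def psi (t : ℝ) : ℝ := t * Real.log t

/-- relative entropy term without normalisation -/
noncomputable def De (a m : ℝ) : ℝ := a * Real.log a - a * Real.log m

theorem De_add {a b m k : ℝ} (ha : 0 ≤ a) (hb : 0 ≤ b) (hm : 0 ≤ m) (hk : 0 ≤ k)
    (ham : a ≤ 2 * m) (hbk : b ≤ 2 * k) : De (a + b) (m + k) ≤ De a m + De b k := by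
  unfold De
  rcases eq_or_lt_of_le ha with rfl | ha'
  · rcases eq_or_lt_of_le hb with rfl | hb'
    · simp
    · have hk' : 0 < k := by linarith
      have : Real.log k ≤ Real.log (m + k) := Real.log_le_log hk' (by linarith)
      simp only [zero_add, zero_mul]
      nlinarith
  · have hm' : 0 < m := by linarith
    rcases eq_or_lt_of_le hb with rfl | hb'
    · have : Real.log m ≤ Real.log (m + k) := Real.log_le_log hm' (by linarith)
      simp only [add_zero, zero_mul]
      nlinarith
    · have hk' : 0 < k := by linarith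
      have hS : 0 < a + b := by linarith
      have hM : 0 < m + k := by linarith
      have h1 : Real.log ((m * (a + b)) / (a * (m + k))) ≤ (m * (a + b)) / (a * (m + k)) - 1 :=
        Real.log_le_sub_one_of_pos (by positivity)
      have h2 : Real.log ((k * (a + b)) / (b * (m + k))) ≤ (k * (a + b)) / (b * (m + k)) - 1 :=
        Real.log_le_sub_one_of_pos (by positivity)
      rw [Real.log_div (by positivity) (by positivity), Real.log_mul hm'.ne' hS.ne',
        Real.log_mul ha'.ne' hM.ne'] at h1
      rw [Real.log_div (by positivity) (by positivity), Real.log_mul hk'.ne' hS.ne',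
        Real.log_mul hb'.ne' hM.ne'] at h2
      have h3 := mul_le_mul_of_nonneg_left h1 ha'.le
      have h4 := mul_le_mul_of_nonneg_left h2 hb'.le
      have e1 : a * ((m * (a + b)) / (a * (m + k)) - 1) = m * (a + b) / (m + k) - a := by
        field_simp
      have e2 : b * ((k * (a + b)) / (b * (m + k)) - 1) = k * (a + b) / (m + k) - b := by
        field_simp
      have e3 : m * (a + b) / (m + k) + k * (a + b) / (m + k) = a + b := by
        field_simp
      rw [e1] at h3
      rw [e2] at h4
      nlinarith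

/-- the two-point Jensen gap of `t log t` -/
noncomputable def J (a b : ℝ) : ℝ := (psi a + psi b) / 2 - psi ((a + b) / 2)

theorem J_eq (a b : ℝ) : J a b = (De a ((a + b) / 2) + De b ((a + b) / 2)) / 2 := by
  unfold J De psi; ring

theorem J_add {a b c d : ℝ} (ha : 0 ≤ a) (hb : 0 ≤ b) (hc : 0 ≤ c) (hd : 0 ≤ d) :
    J (a + c) (b + d) ≤ J a b + J c d := by
  rw [J_eq, J_eq, J_eq]
  have h1 := De_add (a := a) (b := c) (m := (a + b) / 2) (k := (c + d) / 2) ha hc (by positivity)
    (by positivity) (by linarith) (by linarith)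
  have h2 := De_add (a := b) (b := d) (m := (a + b) / 2) (k := (c + d) / 2) hb hd (by positivity)
    (by positivity) (by linarith) (by linarith)
  have e : (a + c + (b + d)) / 2 = (a + b) / 2 + (c + d) / 2 := by ring
  rw [e]
  linarith

/-- Hellinger lower bound -/
theorem De_ge {a m : ℝ} (ha : 0 ≤ a) (hm : 0 ≤ m) (ham : a ≤ 2 * m) :
    (a - m) ^ 2 ≤ 6 * m * (De a m - a + m) := by
  unfold De
  rcases eq_or_lt_of_le ha with rfl | ha'
  · simp only [zero_mul, sub_zero, zero_sub, zero_add]; nlinarith
  · have hm' : 0 < m := by linarith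
    set x := Real.sqrt a with hx
    set y := Real.sqrt m with hy
    have hx0 : 0 < x := Real.sqrt_pos.2 ha'
    have hy0 : 0 < y := Real.sqrt_pos.2 hm'
    have hxa : a = x ^ 2 := (Real.sq_sqrt ha).symm
    have hym : m = y ^ 2 := (Real.sq_sqrt hm).symm
    have h1 : Real.log (y / x) ≤ y / x - 1 := Real.log_le_sub_one_of_pos (by positivity)
    rw [Real.log_div hy0.ne' hx0.ne'] at h1
    have h2 : Real.log a = 2 * Real.log x := by rw [hxa, Real.log_pow]; norm_num
    have h3 : Real.log m = 2 * Real.log y := by rw [hym, Real.log_pow]; norm_num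
    rw [h2, h3]
    have h4 := mul_le_mul_of_nonneg_left h1 (by positivity : 0 ≤ 2 * x ^ 2)
    have e1 : 2 * x ^ 2 * (y / x - 1) = 2 * x * y - 2 * x ^ 2 := by field_simp
    rw [e1] at h4
    -- `(x - y)^2 ≤ De - a + m`
    have h5 : (x - y) ^ 2 ≤ a * (2 * Real.log x) - a * (2 * Real.log y) - a + m := by
      rw [hxa, hym]; nlinarith
    have h6 : (x + y) ^ 2 ≤ 6 * m := by
      rw [hym]; rw [hxa, hym] at ham; nlinarith [sq_nonneg (x - y)]
    calc (a - m) ^ 2 = (x + y) ^ 2 * (x - y) ^ 2 := by rw [hxa, hym]; ring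
      _ ≤ 6 * m * (a * (2 * Real.log x) - a * (2 * Real.log y) - a + m) :=
        mul_le_mul h6 h5 (sq_nonneg _) (by positivity)

theorem De_sub_nonneg {a m : ℝ} (ha : 0 ≤ a) (hm : 0 ≤ m) (ham : a ≤ 2 * m) :
    0 ≤ De a m - a + m := by
  rcases eq_or_lt_of_le hm with rfl | hm'
  · have : a = 0 := by linarith
    subst this; simp [De]
  · have h := De_ge ha hm ham
    by_contra hc
    push Not at hc
    have : 6 * m * (De a m - a + m) < 0 := mul_neg_of_pos_of_neg (by positivity) hc
    nlinarith [sq_nonneg (a - m)]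

theorem J_nonneg {a b : ℝ} (ha : 0 ≤ a) (hb : 0 ≤ b) : 0 ≤ J a b := by
  rw [J_eq]
  have h1 := De_sub_nonneg (a := a) (m := (a + b) / 2) ha (by positivity) (by linarith)
  have h2 := De_sub_nonneg (a := b) (m := (a + b) / 2) hb (by positivity) (by linarith)
  linarith

/-- two-point Pinsker inequality (constant not optimal) -/
theorem J_pinsker {a b : ℝ} (ha : 0 ≤ a) (hb : 0 ≤ b) :
    (|a - b| / 2) ^ 2 ≤ 12 * ((a + b) / 2) * J a b := by
  rw [J_eq]
  have h1 := De_ge (a := a) (m := (a + b) / 2) ha (by positivity) (by linarith)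
  have h2 := De_sub_nonneg (a := b) (m := (a + b) / 2) hb (by positivity) (by linarith)
  have e : (|a - b| / 2) ^ 2 = (a - (a + b) / 2) ^ 2 := by
    rw [div_pow, sq_abs]; ring
  rw [e]
  have hm : 0 ≤ (a + b) / 2 := by positivity
  have h3 := mul_nonneg hm h2
  nlinarith

/-- finite subadditivity of `J` -/
theorem J_sum {ι : Type*} (s : Finset ι) {a b : ι → ℝ} (ha : ∀ i ∈ s, 0 ≤ a i)
    (hb : ∀ i ∈ s, 0 ≤ b i) : J (∑ i ∈ s, a i) (∑ i ∈ s, b i) ≤ ∑ i ∈ s, J (a i) (b i) := by
  classical
  induction s using Finset.induction_on with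
  | empty => simp [J, psi]
  | insert i s hi ih =>
    rw [Finset.sum_insert hi, Finset.sum_insert hi, Finset.sum_insert hi]
    have h1 := ih (fun j hj => ha j (Finset.mem_insert_of_mem hj))
      (fun j hj => hb j (Finset.mem_insert_of_mem hj))
    have h2 := J_add (ha i (Finset.mem_insert_self _ _)) (hb i (Finset.mem_insert_self _ _))
      (Finset.sum_nonneg fun j hj => ha j (Finset.mem_insert_of_mem hj))
      (Finset.sum_nonneg fun j hj => hb j (Finset.mem_insert_of_mem hj))
    linarith

/-- splitting into `K` pieces lowers `∑ t log t` by at most `(total) log K` -/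
theorem psi_sum_ge {ι : Type*} [Fintype ι] [Nonempty ι] {a : ι → ℝ} (ha : ∀ i, 0 ≤ a i) :
    psi (∑ i, a i) ≤ ∑ i, psi (a i) + (∑ i, a i) * Real.log (Fintype.card ι) := by
  unfold psi
  have hK : (0 : ℝ) < Fintype.card ι := by exact_mod_cast Fintype.card_pos
  have hS0 : 0 ≤ ∑ i, a i := Finset.sum_nonneg fun i _ => ha i
  rcases eq_or_lt_of_le hS0 with h0 | hS
  · have hz : ∀ i, a i = 0 := fun i =>
      (Finset.sum_eq_zero_iff_of_nonneg (fun i _ => ha i)).1 h0.symm i (Finset.mem_univ i)
    simp [hz]
  · have key : ∀ i, a i * Real.log (∑ i, a i) - a i * Real.log (Fintype.card ι)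
        - a i * Real.log (a i) ≤ (∑ i, a i) / Fintype.card ι - a i := by
      intro i
      rcases eq_or_lt_of_le (ha i) with h | h
      · rw [← h]; simp only [zero_mul, sub_zero]; positivity
      · have h1 : Real.log ((∑ i, a i) / (Fintype.card ι * a i))
            ≤ (∑ i, a i) / (Fintype.card ι * a i) - 1 :=
          Real.log_le_sub_one_of_pos (by positivity)
        rw [Real.log_div hS.ne' (by positivity), Real.log_mul hK.ne' h.ne'] at h1
        have h2 := mul_le_mul_of_nonneg_left h1 h.le
        have e1 : a i * ((∑ i, a i) / (Fintype.card ι * a i) - 1)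
            = (∑ i, a i) / Fintype.card ι - a i := by field_simp
        rw [e1] at h2
        linarith
    have hs := Finset.sum_le_sum (fun i (_ : i ∈ Finset.univ) => key i)
    rw [Finset.sum_sub_distrib, Finset.sum_sub_distrib, Finset.sum_sub_distrib,
      ← Finset.sum_mul, ← Finset.sum_mul] at hs
    simp only [Finset.sum_const, Finset.card_univ, nsmul_eq_mul] at hs
    have e2 : (Fintype.card ι : ℝ) * ((∑ i, a i) / Fintype.card ι) = ∑ i, a i := by field_simp
    rw [e2] at hs
    linarith

end Vale.Agent.P091.T.H937
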