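import Vale.Agent.P091.T.H937.CoreDef

/-! # P091, row T8: removals -/

namespace Vale.Agent.P091.T.H937

open Vale.Agent.P091.H413 Finset

/-- mixing entropy -/
noncomputable def Sf (a b : ℝ) : ℝ := psi (a + b) - psi a - psi b

theorem Sf_eq (a b : ℝ) : Sf a b = -(De a (a + b) + De b (a + b)) := by
  unfold Sf De psi; ring

theorem De_sum {ι : Type*} (s : Finset ι) {a m : ι → ℝ} (ha : ∀ i ∈ s, 0 ≤ a i)
    (hm : ∀ i ∈ s, 0 ≤ m i) (ham : ∀ i ∈ s, a i ≤ 2 * m i) :
    De (∑ i ∈ s, a i) (∑ i ∈ s, m i) ≤ ∑ i ∈ s, De (a i) (m i) := by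
  classical
  induction s using Finset.induction_on with
  | empty => simp [De]
  | insert i s hi ih =>
    rw [Finset.sum_insert hi, Finset.sum_insert hi, Finset.sum_insert hi]
    have h1 := ih (fun j hj => ha j (Finset.mem_insert_of_mem hj))
      (fun j hj => hm j (Finset.mem_insert_of_mem hj))
      (fun j hj => ham j (Finset.mem_insert_of_mem hj))
    have h2 := De_add (ha i (Finset.mem_insert_self _ _))
      (Finset.sum_nonneg fun j hj => ha j (Finset.mem_insert_of_mem hj))
      (hm i (Finset.mem_insert_self _ _))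
      (Finset.sum_nonneg fun j hj => hm j (Finset.mem_insert_of_mem hj))
      (ham i (Finset.mem_insert_self _ _))
      (by
        rw [Finset.mul_sum]
        exact Finset.sum_le_sum fun j hj => ham j (Finset.mem_insert_of_mem hj))
    linarith

theorem Sf_sum {ι : Type*} (s : Finset ι) {a b : ι → ℝ} (ha : ∀ i ∈ s, 0 ≤ a i)
    (hb : ∀ i ∈ s, 0 ≤ b i) : ∑ i ∈ s, Sf (a i) (b i) ≤ Sf (∑ i ∈ s, a i) (∑ i ∈ s, b i) := by
  rw [Sf_eq, ← Finset.sum_add_distrib]
  have h1 := De_sum s (a := a) (m := fun i => a i + b i) ha
    (fun i hi => add_nonneg (ha i hi) (hb i hi))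
    (fun i hi => by have := ha i hi; have := hb i hi; linarith)
  have h2 := De_sum s (a := b) (m := fun i => a i + b i) hb
    (fun i hi => add_nonneg (ha i hi) (hb i hi))
    (fun i hi => by have := ha i hi; have := hb i hi; linarith)
  have h3 : ∑ i ∈ s, Sf (a i) (b i) =
      -(∑ i ∈ s, De (a i) (a i + b i) + ∑ i ∈ s, De (b i) (a i + b i)) := by
    rw [← Finset.sum_add_distrib, ← Finset.sum_neg_distrib]
    exact Finset.sum_congr rfl fun i _ => Sf_eq _ _
  rw [h3]
  linarith

/-- the cut entropy -/
theorem Sf_le {a b : ℝ} (ha : 0 ≤ a) (hb : 0 ≤ b) :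
    Sf a b ≤ b + b * Real.log ((a + b) / b) := by
  unfold Sf psi
  rcases eq_or_lt_of_le hb with rfl | hb'
  · simp
  rcases eq_or_lt_of_le ha with rfl | ha'
  · simp only [zero_add, zero_mul]
    rw [div_self hb'.ne', Real.log_one]
    linarith
  have hS : 0 < a + b := by linarith
  rw [Real.log_div hS.ne' hb'.ne']
  have h1 : Real.log ((a + b) / a) ≤ (a + b) / a - 1 :=
    Real.log_le_sub_one_of_pos (by positivity)
  rw [Real.log_div hS.ne' ha'.ne'] at h1
  have h2 := mul_le_mul_of_nonneg_left h1 ha'.le
  have e : a * ((a + b) / a - 1) = b := by field_simp; ring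
  rw [e] at h2
  nlinarith

variable {M : ℕ} [NeZero M] (N : Noise M) (n : ℕ)

theorem Psi_add_le (l : List (ZMod M)) {g r : Node → ℝ} (hg : ∀ y, 0 ≤ g y) (hr : ∀ y, 0 ≤ r y)
    (v : Node) : Psi N n l (fun y => g y + r y) v ≤
      Psi N n l g v + Psi N n l r v + Sf (A n g v) (A n r v) := by
  induction l generalizing g r with
  | nil => simp only [Psi]; rw [A_add]; unfold Sf; linarith
  | cons la l ih =>
    simp only [Psi]
    have h1 : ∀ c, Psi N n l (fun y => (g y + r y) * N.kap l.length la c y) v ≤
        Psi N n l (fun y => g y * N.kap l.length la c y) v +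
        Psi N n l (fun y => r y * N.kap l.length la c y) v +
        Sf (A n (fun y => g y * N.kap l.length la c y) v)
          (A n (fun y => r y * N.kap l.length la c y) v) := by
      intro c
      have := ih (g := fun y => g y * N.kap l.length la c y)
        (r := fun y => r y * N.kap l.length la c y) (mulkap_nonneg N hg _ _ _)
        (mulkap_nonneg N hr _ _ _)
      simp only [← add_mul] at this
      exact this
    refine (Finset.sum_le_sum fun c _ => h1 c).trans ?_
    rw [Finset.sum_add_distrib, Finset.sum_add_distrib]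
    have h2 := Sf_sum (Finset.univ : Finset (ZMod M))
      (a := fun c => A n (fun y => g y * N.kap l.length la c y) v)
      (b := fun c => A n (fun y => r y * N.kap l.length la c y) v)
      (fun c _ => A_nonneg _ (mulkap_nonneg N hg _ _ _))
      (fun c _ => A_nonneg _ (mulkap_nonneg N hr _ _ _))
    rw [sum_A_kap, sum_A_kap] at h2
    linarith

/-- upper bound by the leaves -/
theorem Psi_le_leaves (l : List (ZMod M)) {g : Node → ℝ} (hg : ∀ y, 0 ≤ g y) (v : Node)
    (hv : v.length ≤ n) :
    Psi N n l g v ≤ A n (fun y => psi (g y)) v +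
      A n g v * ∑ i ∈ Finset.range l.length, Real.log (20 * ((i : ℝ) + 1) / M) := by
  have key : ∀ k (v : Node), v.length + k = n → Psi N n l g v ≤ Lf k (Psi N n l g) v := by
    intro k
    induction k with
    | zero => intro v _; exact le_rfl
    | succ k ih =>
      intro v hv
      have h0 := Gap_nonneg N n l hg (v := v) (by omega)
      unfold Gap at h0
      have h1 := ih (true :: v) (by simp only [List.length_cons]; omega)
      have h2 := ih (false :: v) (by simp only [List.length_cons]; omega)
      simp only [Lf]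
      linarith
  refine (key (n - v.length) v (by omega)).trans ?_
  have h2 : Lf (n - v.length) (Psi N n l g) v ≤ Lf (n - v.length) (fun w => psi (g w) +
      (∑ i ∈ Finset.range l.length, Real.log (20 * ((i : ℝ) + 1) / M)) * g w) v := by
    refine Lf_mono' _ _ fun w hw => ?_
    have := Psi_leaf N n l hg (v := w) (by omega)
    linarith
  refine h2.trans (le_of_eq ?_)
  rw [Lf_add, Lf_smul]
  unfold A
  ring

theorem tau_add_le (l : List (ZMod M)) (g r : Node → ℝ) (v : Node) :
    tau N n l (fun y => g y + r y) v ≤ tau N n l g v + tau N n l r v := by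
  have := tau_sum_le N n (Finset.univ : Finset Bool) l (fun b => if b then g else r) v
  simpa using this

theorem tau_le_A (l : List (ZMod M)) {r : Node → ℝ} (hr : ∀ y, 0 ≤ r y) {v : Node}
    (hv : v.length < n) : tau N n l r v ≤ A n r v := by
  induction l generalizing r with
  | nil =>
    simp only [tau]
    rw [A_step r hv]
    have h1 : 0 ≤ A n r (true :: v) := A_nonneg _ hr
    have h2 : 0 ≤ A n r (false :: v) := A_nonneg _ hr
    have : |A n r (true :: v) - A n r (false :: v)| ≤ A n r (true :: v) + A n r (false :: v) := by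
      rw [abs_le]; constructor <;> linarith
    linarith
  | cons la l ih =>
    simp only [tau]
    refine (Finset.sum_le_sum fun c _ => ih (mulkap_nonneg N hr _ _ _)).trans (le_of_eq ?_)
    exact sum_A_kap N n _ _ _ _

end Vale.Agent.P091.T.H937
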