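import Vale.Agent.P091.T.H937.Rem

/-! # P091, row T8: telescoping of the noisy entropy along growing lists, with removals -/

namespace Vale.Agent.P091.T.H937

open Vale.Agent.P091.H413 Finset

theorem S_succ_top (n : ℕ) (f : Node → ℝ) (v : Node) :
    S (n + 1) f v = S n f v + Lf n f v := by
  induction n generalizing v with
  | zero => simp [S, Lf]
  | succ n ih =>
    have e1 : S (n + 1 + 1) f v = f v + (S (n + 1) f (true :: v) + S (n + 1) f (false :: v)) / 2 :=
      rfl
    have e2 : S (n + 1) f v = f v + (S n f (true :: v) + S n f (false :: v)) / 2 := rfl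
    have e3 : Lf (n + 1) f v = (Lf n f (true :: v) + Lf n f (false :: v)) / 2 := rfl
    rw [e1, ih, ih, e2, e3]
    ring

theorem S_child (n : ℕ) (h : Node → ℝ) (v : Node) :
    S n (fun w => (h (true :: w) + h (false :: w)) / 2) v = S n h v - h v + Lf n h v := by
  induction n generalizing v with
  | zero => simp [S, Lf]
  | succ n ih =>
    simp only [S, Lf, ih]
    ring

namespace YSide

variable {n : ℕ} {D : ℝ} (Y : YSide n D)

theorem G_nonneg (v : Node) : 0 ≤ Y.G v := A_nonneg _ (Y.nonneg v)

theorem m_mono {v : Node} (hv : v.length < n) (b : Bool) (y : Node) :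
    Y.m (b :: v) y ≤ Y.m v y := by
  rcases Y.rem v hv b y with h | h
  · exact h.le
  · rw [h]; exact Y.nonneg v y

theorem m_anti {v w : Node} (h : v <:+ w) (hw : w.length ≤ n) (y : Node) :
    Y.m w y ≤ Y.m v y := by
  obtain ⟨t, rfl⟩ := h
  induction t with
  | nil => exact le_rfl
  | cons b t ih =>
    have h1 : (t ++ v).length < n := by
      simp only [List.cons_append, List.length_cons] at hw; omega
    exact (Y.m_mono h1 b y).trans (ih h1.le)

theorem m_le {v : Node} (hv : v.length ≤ n) (y : Node) : Y.m v y ≤ Real.exp D :=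
  (Y.m_anti (List.nil_suffix) hv y).trans (Y.le y)

/-- removed weight at the child -/
def r (b : Bool) (v : Node) (y : Node) : ℝ := Y.m v y - Y.m (b :: v) y

theorem r_nonneg {v : Node} (hv : v.length < n) (b : Bool) (y : Node) : 0 ≤ Y.r b v y :=
  sub_nonneg.2 (Y.m_mono hv b y)

theorem r_le {v : Node} (hv : v.length < n) (b : Bool) (y : Node) :
    Y.r b v y ≤ Real.exp D := by
  unfold r
  have := Y.m_le hv.le y
  have := Y.nonneg (b :: v) y
  linarith

theorem A_r {v : Node} (b : Bool) : A n (Y.r b v) (b :: v) = Y.R (b :: v) := by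
  unfold r R G' G
  have := A_add n (fun y => Y.m v y - Y.m (b :: v) y) (Y.m (b :: v)) (b :: v)
  simp only [sub_add_cancel] at this
  have h2 : A n (fun w => Y.m v w) (b :: v) = A n (Y.m v) (b :: v) := rfl
  rw [h2] at this
  linarith

theorem R_nonneg {v : Node} (hv : v.length ≤ n) : 0 ≤ Y.R v := by
  cases v with
  | nil => simp [R, G', G]
  | cons b v =>
    rw [← Y.A_r b]
    exact A_nonneg _ (Y.r_nonneg (by simpa using hv) b)

theorem R_nil : Y.R [] = 0 := by simp [R, G', G]

theorem loss_nil : Y.loss [] = 0 := by simp [loss, R_nil]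

theorem G'_avg {v : Node} (hv : v.length < n) :
    (Y.G' (true :: v) + Y.G' (false :: v)) / 2 = Y.G v := by
  unfold G' G
  rw [A_step _ hv]

/-- mass conservation -/
theorem S_R (k : ℕ) (v : Node) (h : k + v.length ≤ n) :
    S (k + 1) Y.R v + Lf k Y.G v = Y.G' v := by
  induction k generalizing v with
  | zero => simp only [S, Lf]; unfold R; ring
  | succ k ih =>
    have h1 := ih (true :: v) (by simp only [List.length_cons]; omega)
    have h2 := ih (false :: v) (by simp only [List.length_cons]; omega)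
    have h3 := Y.G'_avg (v := v) (by omega)
    have e1 : S (k + 1 + 1) Y.R v
        = Y.R v + (S (k + 1) Y.R (true :: v) + S (k + 1) Y.R (false :: v)) / 2 := rfl
    have e2 : Lf (k + 1) Y.G v = (Lf k Y.G (true :: v) + Lf k Y.G (false :: v)) / 2 := rfl
    have e3 : Y.R v = Y.G' v - Y.G v := rfl
    rw [e1, e2]
    linarith

end YSide

theorem psi_le_mul {t D : ℝ} (h0 : 0 ≤ t) (h : t ≤ Real.exp D) : psi t ≤ D * t := by
  unfold psi
  rcases eq_or_lt_of_le h0 with h1 | h1
  · rw [← h1]; simp
  · have : Real.log t ≤ D := by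
      rw [← Real.log_exp D]
      exact Real.log_le_log h1 h
    nlinarith

theorem psi_ge (t : ℝ) (h0 : 0 ≤ t) : -1 ≤ psi t := by
  unfold psi
  rcases eq_or_lt_of_le h0 with h1 | h1
  · rw [← h1]; simp
  · have h2 : Real.log (1 / t) ≤ 1 / t - 1 := Real.log_le_sub_one_of_pos (by positivity)
    rw [Real.log_div one_ne_zero h1.ne', Real.log_one] at h2
    have h3 := mul_le_mul_of_nonneg_left h2 h1.le
    have e : t * (1 / t - 1) = 1 - t := by field_simp
    rw [e] at h3
    nlinarith

variable {M : ℕ} [NeZero M] (N : Noise M) {n : ℕ} {D : ℝ} (Y : YSide n D)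

/-- lists of bounded length which grow along the tree -/
structure Grow (M : ℕ) (k : ℕ) where
  L : Node → List (ZMod M)
  N : Node → List (ZMod M)
  child : ∀ b v, L (b :: v) = N (b :: v) ++ L v
  len : ∀ v, (L v).length ≤ k

omit [NeZero M] in
theorem Grow.suffix {k : ℕ} (Q : Grow M k) {v w : Node} (h : v <:+ w) :
    Q.L v <:+ Q.L w := by
  obtain ⟨t, rfl⟩ := h
  induction t with
  | nil => exact List.suffix_refl _
  | cons b t ih =>
    rw [List.cons_append, Q.child]
    exact ih.trans (List.suffix_append _ _)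

/-- the logarithmic cost of a list -/
theorem sum_log_le {k L : ℕ} (h : L ≤ k) :
    ∑ i ∈ Finset.range L, Real.log (20 * ((i : ℝ) + 1) / M) + L * Real.log M ≤
      k * Real.log (20 * ((k : ℝ) + 1)) := by
  have hM : (0 : ℝ) < M := by exact_mod_cast Nat.pos_of_ne_zero (NeZero.ne M)
  have h1 : ∀ i ∈ Finset.range L, Real.log (20 * ((i : ℝ) + 1) / M) ≤
      Real.log (20 * ((k : ℝ) + 1)) - Real.log M := by
    intro i hi
    rw [Real.log_div (by positivity) hM.ne']
    have : (i : ℝ) ≤ k := by
      have := Finset.mem_range.1 hi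
      exact_mod_cast (this.le.trans h)
    have : Real.log (20 * ((i : ℝ) + 1)) ≤ Real.log (20 * ((k : ℝ) + 1)) :=
      Real.log_le_log (by positivity) (by linarith)
    linarith
  have h2 := Finset.sum_le_sum h1
  rw [Finset.sum_const, Finset.card_range, nsmul_eq_mul] at h2
  have h3 : 0 ≤ Real.log (20 * ((k : ℝ) + 1)) :=
    Real.log_nonneg (by nlinarith [Nat.cast_nonneg (α := ℝ) k])
  have h4 : (L : ℝ) * Real.log (20 * ((k : ℝ) + 1)) ≤ k * Real.log (20 * ((k : ℝ) + 1)) :=
    mul_le_mul_of_nonneg_right (by exact_mod_cast h) h3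
  linarith

/-- **Telescoping.** -/
theorem S_Gap_le {k : ℕ} (Q : Grow M k) (hD : 0 ≤ D) {E : ℝ} (hE : S (n + 1) Y.loss [] ≤ E) :
    S n (fun v => Gap N n (Q.L v) (Y.m v) v) [] ≤
      D + k * Real.log (20 * ((k : ℝ) + 1)) + E + 1 := by
  set Λ : ℝ := k * Real.log (20 * ((k : ℝ) + 1)) with hΛ
  have hΛ0 : 0 ≤ Λ := by
    rw [hΛ]
    exact mul_nonneg (Nat.cast_nonneg k)
      (Real.log_nonneg (by nlinarith [Nat.cast_nonneg (α := ℝ) k]))
  set Φ : Node → ℝ := fun v => Psi N n (Q.L v) (Y.m v) v +
    (Q.L v).length * (Y.G v * Real.log M) with hΦ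
  set h : Node → ℝ := fun c => Y.loss c + (D + Λ) * Y.R c with hh
  -- one step
  have hstep : ∀ w : Node, w.length < n + ([] : Node).length →
      Gap N n (Q.L w) (Y.m w) w ≤ (Φ (true :: w) + Φ (false :: w)) / 2 - Φ w +
        (h (true :: w) + h (false :: w)) / 2 := by
    intro w hw
    have hw' : w.length < n := by simpa using hw
    have hb : ∀ b : Bool, Psi N n (Q.L w) (Y.m w) (b :: w) +
        (Q.L w).length * (A n (Y.m w) (b :: w) * Real.log M) ≤ Φ (b :: w) + h (b :: w) := by
      intro b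
      have e0 : (fun y => Y.m (b :: w) y + Y.r b w y) = Y.m w := by
        funext y; unfold YSide.r; ring
      have h1 := Psi_add_le N n (Q.L w) (g := Y.m (b :: w)) (r := Y.r b w) (Y.nonneg _)
        (Y.r_nonneg hw' b) (b :: w)
      rw [e0] at h1
      have h2 := Psi_append_ge N n (Q.N (b :: w)) (Q.L w) (Y.nonneg (b :: w)) (b :: w)
      rw [← Q.child] at h2
      have hbl : (b :: w).length ≤ n := by simp only [List.length_cons]; omega
      have h3 := Psi_le_leaves N n (Q.L w) (Y.r_nonneg hw' b) (b :: w) hbl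
      have h4 : A n (fun y => psi (Y.r b w y)) (b :: w) ≤ D * Y.R (b :: w) := by
        rw [← Y.A_r b, ← A_smul]
        exact A_mono _ fun y => psi_le_mul (Y.r_nonneg hw' b y) (Y.r_le hw' b y)
      have hR := Y.R_nonneg hbl
      have h5 := Sf_le (Y.G_nonneg (b :: w)) hR
      have e1 : Y.G (b :: w) + Y.R (b :: w) = A n (Y.m w) (b :: w) := by
        unfold YSide.R YSide.G'; ring
      have e2 : Y.G' (b :: w) = A n (Y.m w) (b :: w) := rfl
      rw [e1] at h5
      rw [Y.A_r b] at h1 h3
      have e3 : A n (Y.m (b :: w)) (b :: w) = Y.G (b :: w) := rfl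
      rw [e3] at h1 h2
      have h6 := sum_log_le (M := M) (Q.len w)
      have h7 := mul_le_mul_of_nonneg_left h6 hR
      simp only [hΦ, hh]
      unfold YSide.loss
      rw [e2]
      rw [Q.child b w, List.length_append] at *
      push_cast
      rw [← e1]
      rw [← e1] at h5
      rw [mul_add] at h7
      have e4 : ((Q.L w).length : ℝ) * ((Y.G (b :: w) + Y.R (b :: w)) * Real.log M) =
        (Q.L w).length * (Y.G (b :: w) * Real.log M) +
          Y.R (b :: w) * ((Q.L w).length * Real.log M) := by ring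
      rw [e4, add_mul, add_mul]
      linarith
    have h1 := hb true
    have h2 := hb false
    have e5 : Y.G w = (A n (Y.m w) (true :: w) + A n (Y.m w) (false :: w)) / 2 := by
      unfold YSide.G; rw [A_step _ hw']
    have e6 : ((Q.L w).length : ℝ) * (Y.G w * Real.log M) =
      ((Q.L w).length * (A n (Y.m w) (true :: w) * Real.log M) +
        (Q.L w).length * (A n (Y.m w) (false :: w) * Real.log M)) / 2 := by
      rw [e5]; ring
    unfold Gap
    have e7 : Φ w = Psi N n (Q.L w) (Y.m w) w + (Q.L w).length * (Y.G w * Real.log M) := rfl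
    rw [e7, e6]
    linarith
  have hT := S_tele n (f := fun v => Gap N n (Q.L v) (Y.m v) v) (Φ := Φ)
    (g := fun w => (h (true :: w) + h (false :: w)) / 2) [] hstep
  rw [S_child] at hT
  have hS1 : S n h [] + Lf n h [] = S (n + 1) h [] := (S_succ_top n h []).symm
  have hnil : h [] = 0 := by simp only [hh]; rw [Y.loss_nil, Y.R_nil]; ring
  have hS2 : S (n + 1) h [] = S (n + 1) Y.loss [] + (D + Λ) * S (n + 1) Y.R [] := by
    simp only [hh]
    rw [S_add, S_smul]
  have hmass := Y.S_R n [] (by simp)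
  have hG1 : Y.G' [] ≤ 1 := Y.avg
  have hleaf : Lf n Φ [] ≤ (D + Λ) * Lf n Y.G [] := by
    rw [← Lf_smul]
    refine Lf_mono' _ _ fun w hw => ?_
    have hw' : w.length = n := by simpa using hw
    have h1 := Psi_leaf N n (Q.L w) (Y.nonneg w) (v := w) hw'.ge
    have e1 : Y.G w = Y.m w w := A_leaf _ hw'.ge
    have h2 : psi (Y.m w w) ≤ D * Y.m w w := psi_le_mul (Y.nonneg w w) (Y.m_le hw'.le w)
    have h3 := mul_le_mul_of_nonneg_left (sum_log_le (M := M) (Q.len w)) (Y.nonneg w w)
    simp only [hΦ]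
    rw [e1]
    rw [mul_add] at h3
    have e2 : Y.m w w * ((Q.L w).length * Real.log M) =
      (Q.L w).length * (Y.m w w * Real.log M) := by ring
    rw [e2] at h3
    linarith
  have hroot : -1 ≤ Φ [] := by
    have h1 := Psi_append_ge N n (Q.L []) [] (Y.nonneg []) []
    rw [List.append_nil] at h1
    have h2 : Psi N n [] (Y.m []) [] = psi (A n (Y.m []) []) := rfl
    have h3 := psi_ge _ (A_nonneg (n := n) [] (Y.nonneg []))
    have e3 : A n (Y.m []) [] = Y.G [] := rfl
    simp only [hΦ]
    rw [h2] at h1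
    rw [e3] at h1 h3
    linarith
  have hDΛ : 0 ≤ D + Λ := by linarith
  have h9 : (D + Λ) * (S (n + 1) Y.R [] + Lf n Y.G []) ≤ (D + Λ) * 1 :=
    mul_le_mul_of_nonneg_left (by rw [hmass]; exact hG1) hDΛ
  linarith

end Vale.Agent.P091.T.H937
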